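import Mathlib

/-!
Dual-measure estimates for cylinder coverings of centrally symmetric convex bodies.
All the work is done in a product `V × ℝ`, the cylinder direction being the second factor.
-/

open MeasureTheory Set Module
open scoped ENNReal Pointwise Topology

namespace Vale.Agent.helper6.Bang

section OneDim

/-- Hermite-Hadamard upper bound for a function majorized by an affine function on an interval. -/
lemma integral_le_of_chord {g : ℝ → ℝ} (hg : Continuous g) {x y A B : ℝ} (hxy : x ≤ y)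
    (hA : g x ≤ A) (hB : g y ≤ B)
    (hconv : ∀ t ∈ Icc x y, (y - x) * g t ≤ (y - t) * g x + (t - x) * g y) :
    ∫ t in x..y, g t ≤ (y - x) * (A + B) / 2 := by
  rcases hxy.eq_or_lt with rfl | hlt
  · simp
  have hd : 0 < y - x := sub_pos.mpr hlt
  have key : ∀ t ∈ Icc x y, g t ≤ ((y - t) * A + (t - x) * B) / (y - x) := by
    intro t ht
    rw [le_div_iff₀ hd]
    have h1 : (y - t) * g x ≤ (y - t) * A := mul_le_mul_of_nonneg_left hA (by linarith [ht.2])
    have h2 : (t - x) * g y ≤ (t - x) * B := mul_le_mul_of_nonneg_left hB (by linarith [ht.1])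
    have := hconv t ht
    nlinarith
  have hle : ∫ t in x..y, g t ≤ ∫ t in x..y, ((y - t) * A + (t - x) * B) / (y - x) := by
    apply intervalIntegral.integral_mono_on hlt.le (hg.intervalIntegrable _ _)
    · exact Continuous.intervalIntegrable (by fun_prop) _ _
    · intro t ht; exact key t ht
  have hcomp : ∫ t in x..y, ((y - t) * A + (t - x) * B) / (y - x) = (y - x) * (A + B) / 2 := by
    have hderiv : ∀ t ∈ uIcc x y, HasDerivAt
        (fun t => ((y * t - t ^ 2 / 2) * A + (t ^ 2 / 2 - x * t) * B) / (y - x))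
        (((y - t) * A + (t - x) * B) / (y - x)) t := by
      intro t _
      have h1 : HasDerivAt (fun t : ℝ => y * t - t ^ 2 / 2) (y - t) t := by
        have := ((hasDerivAt_id' t).const_mul y).sub ((hasDerivAt_pow 2 t).div_const 2)
        refine this.congr_deriv ?_
        norm_num
      have h2 : HasDerivAt (fun t : ℝ => t ^ 2 / 2 - x * t) (t - x) t := by
        have := ((hasDerivAt_pow 2 t).div_const 2).sub ((hasDerivAt_id' t).const_mul x)
        refine this.congr_deriv ?_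
        norm_num
      exact ((h1.mul_const A).add (h2.mul_const B)).div_const (y - x)
    rw [intervalIntegral.integral_eq_sub_of_hasDerivAt hderiv
      (Continuous.intervalIntegrable (by fun_prop) _ _)]
    have hne : y - x ≠ 0 := hd.ne'
    field_simp
    ring
  linarith

/-- A continuous function on `[a,b]`, midpoint-convex in the chord sense, bounded by `1` at the ends
and by `s` at an interior point `t₀`, has integral at most `(b-a)(1+s)/2`. -/
lemma integral_le_of_convex_min {g : ℝ → ℝ} (hg : Continuous g) {a b t₀ s : ℝ}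
    (ht₀ : t₀ ∈ Icc a b) (ha : g a ≤ 1) (hb : g b ≤ 1) (hs : g t₀ ≤ s)
    (hconv : ∀ x ∈ Icc a b, ∀ y ∈ Icc a b, x ≤ y → ∀ t ∈ Icc x y,
      (y - x) * g t ≤ (y - t) * g x + (t - x) * g y) :
    ∫ t in a..b, g t ≤ (b - a) * (1 + s) / 2 := by
  have h1 := integral_le_of_chord hg ht₀.1 ha hs
    (hconv a (left_mem_Icc.mpr (ht₀.1.trans ht₀.2)) t₀ ht₀ ht₀.1)
  have h2 := integral_le_of_chord hg ht₀.2 hs hb
    (hconv t₀ ht₀ b (right_mem_Icc.mpr (ht₀.1.trans ht₀.2)) ht₀.2)
  have hsum : (∫ t in a..t₀, g t) + (∫ t in t₀..b, g t) = ∫ t in a..b, g t :=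
    intervalIntegral.integral_add_adjacent_intervals (hg.intervalIntegrable _ _)
      (hg.intervalIntegrable _ _)
  rw [← hsum]
  nlinarith

end OneDim

section Body

variable {V : Type*} [NormedAddCommGroup V] [NormedSpace ℝ V]

/-- A compact convex centrally symmetric neighbourhood of the origin in `V × ℝ`. -/
structure IsSymBody (L : Set (V × ℝ)) : Prop where
  convex : Convex ℝ L
  compact : IsCompact L
  symm : ∀ p ∈ L, -p ∈ L
  nhds : L ∈ 𝓝 (0 : V × ℝ)

lemma section_convex {L : Set (V × ℝ)} (hconv : Convex ℝ L) (v : V) :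
    Convex ℝ (Prod.mk v ⁻¹' L) := by
  intro x hx y hy a b ha hb hab
  have h := hconv hx hy ha hb hab
  simp only [mem_preimage]
  convert h using 1
  ext
  · simp [← add_smul, hab]
  · simp

lemma sec_length_ge {L : Set (V × ℝ)} (hconv : Convex ℝ L) (hsymm : ∀ p ∈ L, -p ∈ L)
    {v₀ : V} {a b : ℝ} (ha : (v₀, a) ∈ L) (hb : (v₀, b) ∈ L)
    {c τ : ℝ} (hc : |c| ≤ 1) (hτ0 : 0 ≤ τ) (hτ1 : τ ≤ 1) {d : V} {t : ℝ} (hd : (d, t) ∈ L) :
    ENNReal.ofReal ((1 - τ) * (b - a)) ≤ volume (Prod.mk ((1 - τ) • c • v₀ + τ • d) ⁻¹' L) := by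
  obtain ⟨hc1, hc2⟩ := abs_le.mp hc
  have key : ∀ x y, (v₀, x) ∈ L → (v₀, y) ∈ L →
      (((1 - τ) • c • v₀ + τ • d), (1 - τ) * ((1 + c) / 2 * x - (1 - c) / 2 * y) + τ * t) ∈ L := by
    intro x y hx hy
    have h1 : ((1 + c) / 2) • (v₀, x) + ((1 - c) / 2) • (-(v₀, y)) ∈ L :=
      hconv hx (hsymm _ hy) (by linarith) (by linarith) (by ring)
    have h2 : (1 - τ) • (((1 + c) / 2) • (v₀, x) + ((1 - c) / 2) • (-(v₀, y))) + τ • (d, t) ∈ L :=
      hconv h1 hd (by linarith) hτ0 (by ring)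
    convert h2 using 1
    ext
    · simp only [Prod.fst_add, Prod.smul_fst, Prod.fst_neg, smul_neg]
      congr 1
      congr 1
      rw [← sub_eq_add_neg, ← sub_smul]
      congr 1
      ring
    · simp only [Prod.snd_add, Prod.smul_snd, Prod.snd_neg, smul_eq_mul]
      ring
  set v := (1 - τ) • c • v₀ + τ • d with hv
  have hcv := section_convex hconv v
  set t₀ := (1 - τ) * ((1 + c) / 2 * a - (1 - c) / 2 * b) + τ * t with ht₀
  have h₁ : t₀ ∈ Prod.mk v ⁻¹' L := key a b ha hb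
  have h₂ : t₀ + (1 - τ) * (b - a) ∈ Prod.mk v ⁻¹' L := by
    have := key b a hb ha
    simp only [mem_preimage]
    convert this using 2
    rw [ht₀]
    ring
  have hsub : Icc t₀ (t₀ + (1 - τ) * (b - a)) ⊆ Prod.mk v ⁻¹' L :=
    hcv.ordConnected.out h₁ h₂
  calc ENNReal.ofReal ((1 - τ) * (b - a))
      = volume (Icc t₀ (t₀ + (1 - τ) * (b - a))) := by
        rw [Real.volume_Icc]; congr 1; ring
    _ ≤ _ := measure_mono hsub

lemma exists_dual {D : Set V} (hconv : Convex ℝ D) (hnhds : D ∈ 𝓝 (0 : V))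
    (hsymm : ∀ d ∈ D, -d ∈ D) (v₀ : V) :
    ∃ ν : Dual ℝ V, (∀ d ∈ D, |ν d| ≤ 1) ∧ ν v₀ = gauge D v₀ := by
  have habs : Absorbent ℝ D := absorbent_nhds_zero hnhds
  have hle : ∃ g : Dual ℝ V, (∀ x, g x ≤ gauge D x) ∧ g v₀ = gauge D v₀ := by
    by_cases hv : v₀ = 0
    · refine ⟨0, fun x => gauge_nonneg x, ?_⟩
      simp [hv]
    · let f : V →ₗ.[ℝ] ℝ := LinearPMap.mkSpanSingleton v₀ (gauge D v₀) hv
      obtain ⟨g, hg1, hg2⟩ := exists_extension_of_le_sublinear f (gauge D)
        (fun c hc x => by simpa [smul_eq_mul] using gauge_smul_of_nonneg hc.le (s := D) x)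
        (fun x y => gauge_add_le hconv habs x y)
        (by
          rintro ⟨x, hx⟩
          obtain ⟨c, rfl⟩ := Submodule.mem_span_singleton.mp hx
          have hval : f ⟨c • v₀, hx⟩ = c * gauge D v₀ := by
            exact LinearPMap.mkSpanSingleton'_apply v₀ (gauge D v₀) _ c hx
          rw [hval]
          rcases le_or_gt 0 c with hc | hc
          · have := gauge_smul_of_nonneg hc (s := D) v₀
            simp only [smul_eq_mul] at this
            simp [this]
          · have h0 : c * gauge D v₀ ≤ 0 :=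
              mul_nonpos_of_nonpos_of_nonneg hc.le (gauge_nonneg _)
            exact h0.trans (gauge_nonneg _))
      refine ⟨g, hg2, ?_⟩
      have := hg1 ⟨v₀, Submodule.mem_span_singleton_self v₀⟩
      rw [show f ⟨v₀, Submodule.mem_span_singleton_self v₀⟩ = gauge D v₀ from
        LinearPMap.mkSpanSingleton_apply ℝ ℝ hv (gauge D v₀)] at this
      exact this
  obtain ⟨g, hg1, hg2⟩ := hle
  refine ⟨g, fun d hd => ?_, hg2⟩
  rw [abs_le]
  constructor
  · have h := (hg1 (-d)).trans (gauge_le_one_of_mem (hsymm d hd))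
    simp only [map_neg] at h
    linarith
  · exact (hg1 d).trans (gauge_le_one_of_mem hd)

namespace IsSymBody

variable {L : Set (V × ℝ)}

lemma zero_mem (hL : IsSymBody L) : (0 : V × ℝ) ∈ L := mem_of_mem_nhds hL.nhds

lemma absorbent (hL : IsSymBody L) : Absorbent ℝ L := absorbent_nhds_zero hL.nhds

lemma fst_convex (hL : IsSymBody L) : Convex ℝ (Prod.fst '' L) :=
  hL.convex.linear_image (LinearMap.fst ℝ V ℝ)

lemma fst_compact (hL : IsSymBody L) : IsCompact (Prod.fst '' L) :=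
  hL.compact.image continuous_fst

lemma fst_symm (hL : IsSymBody L) : ∀ d ∈ Prod.fst '' L, -d ∈ Prod.fst '' L := by
  rintro _ ⟨p, hp, rfl⟩
  exact ⟨-p, hL.symm p hp, by simp⟩

lemma fst_nhds (hL : IsSymBody L) : Prod.fst '' L ∈ 𝓝 (0 : V) := by
  have := isOpenMap_fst.image_mem_nhds hL.nhds
  simpa using this

lemma exists_low_point (hL : IsSymBody L) {v₀ : V} (hv : v₀ ∈ Prod.fst '' L) :
    ∃ t₀, (v₀, t₀) ∈ L ∧ gauge L (v₀, t₀) ≤ gauge (Prod.fst '' L) v₀ := by
  set D := Prod.fst '' L with hD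
  have habsD : Absorbent ℝ D := absorbent_nhds_zero hL.fst_nhds
  have hbdd : Bornology.IsVonNBounded ℝ D :=
    (NormedSpace.isVonNBounded_iff ℝ).mpr hL.fst_compact.isBounded
  have hs1 : gauge D v₀ ≤ 1 := gauge_le_one_of_mem hv
  rcases (gauge_nonneg v₀ : 0 ≤ gauge D v₀).eq_or_lt with hs0 | hs0
  · have hv0 : v₀ = 0 := (gauge_eq_zero habsD hbdd).mp hs0.symm
    refine ⟨0, ?_, ?_⟩
    · rw [hv0]; exact hL.zero_mem
    · rw [hv0]
      have : ((0 : V), (0 : ℝ)) = (0 : V × ℝ) := rfl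
      rw [this, gauge_zero, gauge_zero]
  · set s := gauge D v₀ with hs
    set q := s⁻¹ • v₀ with hq
    have hgq : gauge D q ≤ 1 := by
      rw [hq, gauge_smul_of_nonneg (inv_pos.mpr hs0).le, smul_eq_mul, ← hs,
        inv_mul_cancel₀ hs0.ne']
    have hqD : q ∈ D := by
      have := (gauge_le_one_iff_mem_closure hL.fst_convex hL.fst_nhds).mp hgq
      rwa [hL.fst_compact.isClosed.closure_eq] at this
    obtain ⟨⟨q', z⟩, hqz, hq'⟩ := hqD
    simp only at hq'
    subst hq'
    have hvq : s • q = v₀ := by rw [hq, smul_smul, mul_inv_cancel₀ hs0.ne', one_smul]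
    have hp : ((v₀, s * z) : V × ℝ) = s • (q, z) := by
      ext
      · simp [hvq]
      · simp
    refine ⟨s * z, ?_, ?_⟩
    · rw [hp]
      exact hL.convex.smul_mem_of_zero_mem hL.zero_mem hqz ⟨hs0.le, hs1⟩
    · rw [hp, gauge_smul_of_nonneg hs0.le, smul_eq_mul]
      exact mul_le_of_le_one_right hs0.le (gauge_le_one_of_mem hqz)

lemma gauge_chord (hL : IsSymBody L) (v₀ : V) {x y t : ℝ} (hxt : x ≤ t) (hty : t ≤ y) :
    (y - x) * gauge L (v₀, t) ≤ (y - t) * gauge L (v₀, x) + (t - x) * gauge L (v₀, y) := by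
  have hxy : 0 ≤ y - x := by linarith
  have hyt : 0 ≤ y - t := by linarith
  have htx : 0 ≤ t - x := by linarith
  have heq : (y - x) • ((v₀, t) : V × ℝ) = (y - t) • (v₀, x) + (t - x) • (v₀, y) := by
    ext
    · simp only [Prod.smul_fst, Prod.fst_add, ← add_smul]
      congr 1
      ring
    · simp only [Prod.smul_snd, Prod.snd_add, smul_eq_mul]
      ring
  have h := gauge_add_le hL.convex hL.absorbent ((y - t) • ((v₀, x) : V × ℝ)) ((t - x) • (v₀, y))
  rw [← heq, gauge_smul_of_nonneg hxy, gauge_smul_of_nonneg hyt, gauge_smul_of_nonneg htx] at h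
  simpa only [smul_eq_mul] using h

lemma section_eq_Icc (hL : IsSymBody L) {v₀ : V} (hv : v₀ ∈ Prod.fst '' L) :
    ∃ a b, a ≤ b ∧ Prod.mk v₀ ⁻¹' L = Icc a b := by
  have hconv := section_convex hL.convex v₀
  have hne : (Prod.mk v₀ ⁻¹' L).Nonempty := by
    obtain ⟨⟨v, t⟩, hp, hv'⟩ := hv
    simp only at hv'
    subst hv'
    exact ⟨t, hp⟩
  have hcomp : IsCompact (Prod.mk v₀ ⁻¹' L) := by
    refine (hL.compact.image continuous_snd).of_isClosed_subset
      (hL.compact.isClosed.preimage (by fun_prop)) ?_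
    intro t ht
    exact ⟨(v₀, t), ht, rfl⟩
  have hconn : IsConnected (Prod.mk v₀ ⁻¹' L) := ⟨hne, hconv.isPreconnected⟩
  refine ⟨_, _, ?_, eq_Icc_of_connected_compact hconn hcomp⟩
  exact Real.sInf_le_sSup _ hcomp.bddBelow hcomp.bddAbove

lemma section_volume_ne_top (hL : IsSymBody L) (v : V) :
    volume (Prod.mk v ⁻¹' L) ≠ ⊤ := by
  have hsub : Prod.mk v ⁻¹' L ⊆ Prod.snd '' L := fun t ht => ⟨(v, t), ht, rfl⟩
  exact ((measure_mono hsub).trans_lt (hL.compact.image continuous_snd).measure_lt_top).ne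

/-- The key one-dimensional estimate: integral of `1 + 2 * gauge` along a chord. -/
lemma chord_integral_le (hL : IsSymBody L) {v₀ : V} (hv : v₀ ∈ Prod.fst '' L) {a b : ℝ} (hab : a ≤ b)
    (hsec : Prod.mk v₀ ⁻¹' L = Icc a b) :
    ∫⁻ t in Prod.mk v₀ ⁻¹' L, ENNReal.ofReal (1 + 2 * gauge L (v₀, t)) ≤
      ENNReal.ofReal ((b - a) * (2 + gauge (Prod.fst '' L) v₀)) := by
  set s := gauge (Prod.fst '' L) v₀ with hs
  have hcg : Continuous (gauge L) := continuous_gauge hL.convex hL.nhds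
  have hg : Continuous (fun t : ℝ => gauge L (v₀, t)) := hcg.comp (by fun_prop)
  have hcF : Continuous (fun t : ℝ => 1 + 2 * gauge L (v₀, t)) := by fun_prop
  obtain ⟨t₀, ht₀, hlow⟩ := hL.exists_low_point hv
  have ht₀' : t₀ ∈ Icc a b := by rw [← hsec]; exact ht₀
  have ha : (v₀, a) ∈ L := by
    have : a ∈ Prod.mk v₀ ⁻¹' L := by rw [hsec]; exact left_mem_Icc.mpr hab
    exact this
  have hb : (v₀, b) ∈ L := by
    have : b ∈ Prod.mk v₀ ⁻¹' L := by rw [hsec]; exact right_mem_Icc.mpr hab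
    exact this
  have hbound : ∫ t in a..b, gauge L (v₀, t) ≤ (b - a) * (1 + s) / 2 :=
    integral_le_of_convex_min hg ht₀' (gauge_le_one_of_mem ha) (gauge_le_one_of_mem hb) hlow
      (fun x _ y _ _ t ht => hL.gauge_chord v₀ ht.1 ht.2)
  have hint : ∫ t in a..b, (1 + 2 * gauge L (v₀, t)) ≤ (b - a) * (2 + s) := by
    have h1 : ∫ t in a..b, (1 + 2 * gauge L (v₀, t)) =
        (b - a) + 2 * ∫ t in a..b, gauge L (v₀, t) := by
      rw [intervalIntegral.integral_add (by simp) ((hg.const_mul 2).intervalIntegrable _ _)]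
      simp [intervalIntegral.integral_const_mul]
    rw [h1]
    nlinarith
  have hconv : ∫⁻ t in Prod.mk v₀ ⁻¹' L, ENNReal.ofReal (1 + 2 * gauge L (v₀, t)) =
      ENNReal.ofReal (∫ t in a..b, (1 + 2 * gauge L (v₀, t))) := by
    rw [hsec, intervalIntegral.integral_of_le hab, ← integral_Icc_eq_integral_Ioc,
      ofReal_integral_eq_lintegral_ofReal (hcF.integrableOn_Icc)]
    exact ae_restrict_of_forall_mem measurableSet_Icc
      (fun t _ => by positivity [gauge_nonneg (s := L) (v₀, t)])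
  rw [hconv]
  exact ENNReal.ofReal_le_ofReal hint

end IsSymBody

end Body

section Measure

variable {V : Type*} [NormedAddCommGroup V] [NormedSpace ℝ V] [FiniteDimensional ℝ V]
  [MeasurableSpace V] [BorelSpace V]

/-- Integral of the quadratic weight appearing in the superlevel estimate. -/
lemma integral_weight {h s : ℝ} (hh : 0 < h) :
    ∫ x in (0 : ℝ)..h, ((1 - x / h) * ((1 - x / h) + (1 - (1 - x / h)) * s)) = h * (2 + s) / 6 := by
  have hderiv : ∀ x ∈ uIcc 0 h, HasDerivAt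
      (fun x : ℝ => -(h / 3) * (1 - x / h) ^ 3 - s * h * ((1 - x / h) ^ 2 / 2 - (1 - x / h) ^ 3 / 3))
      ((1 - x / h) * ((1 - x / h) + (1 - (1 - x / h)) * s)) x := by
    intro x _
    have hτ : HasDerivAt (fun x : ℝ => 1 - x / h) (-(1 / h)) x := by
      have := ((hasDerivAt_id' x).div_const h).const_sub 1
      exact this
    have h3 := hτ.pow 3
    have h2 := hτ.pow 2
    have hF := ((h3.const_mul (-(h / 3))).sub
      (((h2.div_const 2).sub (h3.div_const 3)).const_mul (s * h)))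
    refine hF.congr_deriv ?_
    simp only [Nat.cast_ofNat, Nat.add_one_sub_one]
    field_simp
    ring
  rw [intervalIntegral.integral_eq_sub_of_hasDerivAt hderiv
    (Continuous.intervalIntegrable (by fun_prop (disch := exact hh.ne')) _ _)]
  have hne : h ≠ 0 := hh.ne'
  field_simp
  ring

variable {L : Set (V × ℝ)}

lemma superlevel_measure (hdim : finrank ℝ V = 2) (μ : Measure V) [μ.IsAddHaarMeasure]
    (hL : IsSymBody L) {v₀ : V} {a b : ℝ} (ha : (v₀, a) ∈ L) (hb : (v₀, b) ∈ L)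
    {τ : ℝ} (hτ0 : 0 < τ) (hτ1 : τ ≤ 1) :
    ENNReal.ofReal (τ * (τ + (1 - τ) * gauge (Prod.fst '' L) v₀)) * μ (Prod.fst '' L) ≤
      μ {v | ENNReal.ofReal ((1 - τ) * (b - a)) ≤ volume (Prod.mk v ⁻¹' L)} := by
  set D := Prod.fst '' L with hD
  set s := gauge D v₀ with hs
  obtain ⟨ν, hν1, hν2⟩ := exists_dual hL.fst_convex hL.fst_nhds hL.fst_symm v₀
  set κ := (1 - τ) / τ with hκ
  let T : V →ₗ[ℝ] V := τ • LinearMap.transvection ν (κ • v₀)
  have hT : ∀ d, T d = (1 - τ) • (ν d) • v₀ + τ • d := by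
    intro d
    simp only [T, LinearMap.smul_apply, LinearMap.transvection.apply, smul_add, smul_smul]
    rw [add_comm]
    congr 2
    rw [hκ]
    field_simp
  have hdet : LinearMap.det T = τ * (τ + (1 - τ) * s) := by
    simp only [T, LinearMap.det_smul, hdim, LinearMap.transvection.det, map_smul, smul_eq_mul]
    have hν2' : ν v₀ = s := hν2
    rw [hν2', hκ]
    field_simp
  have hnn : 0 ≤ τ * (τ + (1 - τ) * s) := by
    have : 0 ≤ s := gauge_nonneg _
    have h1 : 0 ≤ 1 - τ := by linarith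
    positivity
  have hsub : T '' D ⊆ {v | ENNReal.ofReal ((1 - τ) * (b - a)) ≤ volume (Prod.mk v ⁻¹' L)} := by
    rintro _ ⟨d, ⟨⟨d', t⟩, hp, hd'⟩, rfl⟩
    simp only at hd'
    subst hd'
    have hc : |ν d'| ≤ 1 := hν1 d' ⟨(d', t), hp, rfl⟩
    simp only [mem_ofPred_eq]
    rw [hT]
    exact sec_length_ge hL.convex hL.symm ha hb hc hτ0.le hτ1 hp
  calc ENNReal.ofReal (τ * (τ + (1 - τ) * s)) * μ D
      = μ (T '' D) := by
        rw [Measure.addHaar_image_linearMap, hdet, abs_of_nonneg hnn]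
    _ ≤ _ := measure_mono hsub

/-- Lower bound for the volume of `L` in terms of a chord of `L`. -/
lemma body_volume_ge (hdim : finrank ℝ V = 2) (μ : Measure V) [μ.IsAddHaarMeasure]
    (hL : IsSymBody L) {v₀ : V} {a b : ℝ} (hab : a ≤ b) (ha : (v₀, a) ∈ L) (hb : (v₀, b) ∈ L) :
    ENNReal.ofReal ((b - a) * (2 + gauge (Prod.fst '' L) v₀) / 6) * μ (Prod.fst '' L) ≤
      (μ.prod volume) L := by
  set D := Prod.fst '' L with hD
  set s := gauge D v₀ with hs
  have hs0 : 0 ≤ s := gauge_nonneg _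
  rcases hab.eq_or_lt with rfl | hlt
  · simp
  set h := b - a with hh
  have hpos : 0 < h := sub_pos.mpr hlt
  have hmeas : MeasurableSet L := hL.compact.isClosed.measurableSet
  set φ : V → ℝ≥0∞ := fun v => volume (Prod.mk v ⁻¹' L) with hφ
  have hφm : Measurable φ := measurable_measure_prodMk_left hmeas
  have hφtop : ∀ v, φ v ≠ ⊤ := hL.section_volume_ne_top
  set f : V → ℝ := fun v => (φ v).toReal with hf
  have hfm : Measurable f := hφm.ennreal_toReal
  have hprod : (μ.prod volume) L = ∫⁻ t in Ioi (0 : ℝ), μ {v | t ≤ f v} := by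
    rw [Measure.prod_apply hmeas, ← lintegral_eq_lintegral_meas_le μ
      (Filter.Eventually.of_forall fun v => ENNReal.toReal_nonneg) hfm.aemeasurable]
    refine lintegral_congr fun v => ?_
    rw [ENNReal.ofReal_toReal (hφtop v)]
  set G : ℝ → ℝ := fun x => (1 - x / h) * ((1 - x / h) + (1 - (1 - x / h)) * s) with hG
  have hGc : Continuous G := by fun_prop (disch := exact hpos.ne')
  have hpt : ∀ x ∈ Ioo (0 : ℝ) h, ENNReal.ofReal (G x) * μ D ≤ μ {v | x ≤ f v} := by
    intro x hx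
    have hτ0 : 0 < 1 - x / h := by
      have : x / h < 1 := (div_lt_one hpos).mpr hx.2
      linarith
    have hτ1 : 1 - x / h ≤ 1 := by
      have : 0 < x / h := div_pos hx.1 hpos
      linarith
    have h1 := superlevel_measure hdim μ hL ha hb hτ0 hτ1
    refine h1.trans (measure_mono ?_)
    intro v hv
    simp only [mem_ofPred_eq] at hv ⊢
    have hxe : (1 - (1 - x / h)) * (b - a) = x := by
      rw [← hh]
      field_simp
      ring
    rw [hxe] at hv
    exact (ENNReal.ofReal_le_iff_le_toReal (hφtop v)).mp hv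
  have hint : ∫⁻ x in Ioo (0 : ℝ) h, ENNReal.ofReal (G x) = ENNReal.ofReal (h * (2 + s) / 6) := by
    rw [← integral_weight (s := s) hpos, intervalIntegral.integral_of_le hpos.le,
      integral_Ioc_eq_integral_Ioo, ofReal_integral_eq_lintegral_ofReal
        (hGc.integrableOn_Icc.mono_set Ioo_subset_Icc_self)]
    refine ae_restrict_of_forall_mem measurableSet_Ioo fun x hx => ?_
    have hτ0 : 0 < 1 - x / h := by
      have : x / h < 1 := (div_lt_one hpos).mpr hx.2
      linarith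
    have hτ1 : 0 < x / h := div_pos hx.1 hpos
    simp only [Pi.zero_apply, hG]
    have : 1 - (1 - x / h) = x / h := by ring
    rw [this]
    positivity
  rw [hprod]
  calc ENNReal.ofReal (h * (2 + s) / 6) * μ D
      = ∫⁻ x in Ioo (0 : ℝ) h, ENNReal.ofReal (G x) * μ D := by
        have hmG : Measurable fun x => ENNReal.ofReal (G x) :=
          ENNReal.measurable_ofReal.comp hGc.measurable
        rw [lintegral_mul_const _ hmG, hint]
    _ ≤ ∫⁻ x in Ioo (0 : ℝ) h, μ {v | x ≤ f v} :=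
        setLIntegral_mono' measurableSet_Ioo hpt
    _ ≤ ∫⁻ x in Ioi (0 : ℝ), μ {v | x ≤ f v} :=
        lintegral_mono_set Ioo_subset_Ioi_self

/-- The X-ray of the weight `1 + 2 * gauge` is at most `6 vol(L) / area(D)`. -/
lemma xray_bound (hdim : finrank ℝ V = 2) (μ : Measure V) [μ.IsAddHaarMeasure]
    (hL : IsSymBody L) {v₀ : V} (hv : v₀ ∈ Prod.fst '' L) :
    (∫⁻ t in Prod.mk v₀ ⁻¹' L, ENNReal.ofReal (1 + 2 * gauge L (v₀, t))) * μ (Prod.fst '' L) ≤
      6 * (μ.prod volume) L := by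
  obtain ⟨a, b, hab, hsec⟩ := hL.section_eq_Icc hv
  have h1 := hL.chord_integral_le hv hab hsec
  have ha : (v₀, a) ∈ L := by
    have : a ∈ Prod.mk v₀ ⁻¹' L := by rw [hsec]; exact left_mem_Icc.mpr hab
    exact this
  have hb : (v₀, b) ∈ L := by
    have : b ∈ Prod.mk v₀ ⁻¹' L := by rw [hsec]; exact right_mem_Icc.mpr hab
    exact this
  have h2 := body_volume_ge hdim μ hL hab ha hb
  set D := Prod.fst '' L with hD
  set s := gauge D v₀ with hs
  have hs0 : 0 ≤ s := gauge_nonneg _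
  have hba : 0 ≤ b - a := sub_nonneg.mpr hab
  calc (∫⁻ t in Prod.mk v₀ ⁻¹' L, ENNReal.ofReal (1 + 2 * gauge L (v₀, t))) * μ D
      ≤ ENNReal.ofReal ((b - a) * (2 + s)) * μ D := by gcongr
    _ = 6 * (ENNReal.ofReal ((b - a) * (2 + s) / 6) * μ D) := by
        rw [← mul_assoc]
        congr 1
        rw [show (6 : ℝ≥0∞) = ENNReal.ofReal 6 by simp, ← ENNReal.ofReal_mul (by norm_num)]
        congr 1
        ring
    _ ≤ 6 * (μ.prod volume) L := by gcongr

/-- The cylinder bound in product form. -/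
lemma cyl_bound (hdim : finrank ℝ V = 2) (μ : Measure V) [μ.IsAddHaarMeasure]
    (hL : IsSymBody L) {S : Set V} (hS : MeasurableSet S) :
    (∫⁻ p in L ∩ Prod.fst ⁻¹' S, ENNReal.ofReal (1 + 2 * gauge L p) ∂(μ.prod volume)) *
        μ (Prod.fst '' L) ≤ 6 * (μ.prod volume) L * μ S := by
  have hLm : MeasurableSet L := hL.compact.isClosed.measurableSet
  have hSm : MeasurableSet (Prod.fst ⁻¹' S : Set (V × ℝ)) := measurable_fst hS
  have hcg : Continuous (gauge L) := continuous_gauge hL.convex hL.nhds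
  set F : V × ℝ → ℝ≥0∞ := fun p => ENNReal.ofReal (1 + 2 * gauge L p) with hF
  have hFm : Measurable F := by
    have : Continuous fun p => 1 + 2 * gauge L p := by fun_prop
    exact ENNReal.measurable_ofReal.comp this.measurable
  have hDtop : μ (Prod.fst '' L) ≠ ⊤ := hL.fst_compact.measure_lt_top.ne
  have h1 : ∫⁻ p in L ∩ Prod.fst ⁻¹' S, F p ∂(μ.prod volume) =
      ∫⁻ v in S, ∫⁻ t in Prod.mk v ⁻¹' L, F (v, t) ∂volume ∂μ := by
    rw [← lintegral_indicator (hLm.inter hSm), lintegral_prod _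
      ((hFm.indicator (hLm.inter hSm)).aemeasurable), ← lintegral_indicator hS]
    refine lintegral_congr fun v => ?_
    by_cases hv : v ∈ S
    · rw [indicator_of_mem hv, ← lintegral_indicator (measurable_prodMk_left hLm)]
      refine lintegral_congr fun t => ?_
      by_cases ht : (v, t) ∈ L
      · rw [indicator_of_mem (show (v, t) ∈ L ∩ Prod.fst ⁻¹' S from ⟨ht, hv⟩),
          indicator_of_mem (show t ∈ Prod.mk v ⁻¹' L from ht)]
      · rw [indicator_of_notMem (fun h => ht h.1),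
          indicator_of_notMem (show t ∉ Prod.mk v ⁻¹' L from ht)]
    · rw [indicator_of_notMem hv]
      have h0 : ∀ t, (L ∩ Prod.fst ⁻¹' S).indicator F (v, t) = 0 :=
        fun t => indicator_of_notMem (fun h => hv h.2) _
      simp [h0]
  rw [h1, ← lintegral_mul_const' _ _ hDtop]
  calc ∫⁻ v in S, (∫⁻ t in Prod.mk v ⁻¹' L, F (v, t) ∂volume) * μ (Prod.fst '' L) ∂μ
      ≤ ∫⁻ _ in S, 6 * (μ.prod volume) L ∂μ := by
        refine lintegral_mono fun v => ?_
        by_cases hv : v ∈ Prod.fst '' L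
        · exact xray_bound hdim μ hL hv
        · have hemp : Prod.mk v ⁻¹' L = ∅ := by
            ext t
            simp only [mem_preimage, mem_empty_iff_false, iff_false]
            exact fun ht => hv ⟨(v, t), ht, rfl⟩
          simp [hemp]
    _ = 6 * (μ.prod volume) L * μ S := by simp

end Measure

section Gauge

variable {E : Type*} [NormedAddCommGroup E] [NormedSpace ℝ E] [FiniteDimensional ℝ E]
  [MeasurableSpace E] [BorelSpace E]

lemma integral_one_sub_cube :
    ∫ t in (0 : ℝ)..1, (1 - t ^ 3) = 3 / 4 := by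
  simp only [intervalIntegral.integral_sub, intervalIntegrable_const, intervalIntegral.intervalIntegrable_pow,
    intervalIntegral.integral_const, integral_pow]
  norm_num

/-- The mean of the gauge over a convex body in dimension three. -/
lemma gauge_lintegral_ge (hdim : finrank ℝ E = 3) (μ : Measure E) [μ.IsAddHaarMeasure]
    {K : Set E} (hconv : Convex ℝ K) (hcomp : IsCompact K) (hnhds : K ∈ 𝓝 (0 : E)) :
    ENNReal.ofReal (3 / 4) * μ K ≤ ∫⁻ x in K, ENNReal.ofReal (gauge K x) ∂μ := by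
  have hKm : MeasurableSet K := hcomp.isClosed.measurableSet
  have hcg : Continuous (gauge K) := continuous_gauge hconv hnhds
  have hKtop : μ K ≠ ⊤ := hcomp.measure_lt_top.ne
  rw [lintegral_eq_lintegral_meas_lt (μ.restrict K)
    (Filter.Eventually.of_forall fun x => gauge_nonneg x) hcg.measurable.aemeasurable]
  have hpt : ∀ t ∈ Ioo (0 : ℝ) 1, ENNReal.ofReal (1 - t ^ 3) * μ K ≤
      (μ.restrict K) {x | t < gauge K x} := by
    intro t ht
    have hopen : MeasurableSet {x | t < gauge K x} :=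
      (isOpen_lt continuous_const hcg).measurableSet
    rw [Measure.restrict_apply hopen]
    have hsub : K ⊆ ({x | t < gauge K x} ∩ K) ∪ (t • K) := by
      intro x hx
      by_cases hlt : t < gauge K x
      · exact Or.inl ⟨hlt, hx⟩
      · right
        push Not at hlt
        rw [mem_smul_set_iff_inv_smul_mem₀ ht.1.ne']
        have hle : gauge K (t⁻¹ • x) ≤ 1 := by
          rw [gauge_smul_of_nonneg (inv_pos.mpr ht.1).le, smul_eq_mul]
          rw [inv_mul_le_iff₀ ht.1]
          simpa using hlt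
        have := (gauge_le_one_iff_mem_closure hconv hnhds).mp hle
        rwa [hcomp.isClosed.closure_eq] at this
    have hmeas : μ K ≤ μ ({x | t < gauge K x} ∩ K) + ENNReal.ofReal (t ^ 3) * μ K := by
      refine (measure_mono hsub).trans ((measure_union_le _ _).trans ?_)
      gcongr
      rw [Measure.addHaar_smul, hdim, abs_of_nonneg (by have := ht.1; positivity)]
    have hsum : ENNReal.ofReal (1 - t ^ 3) * μ K + ENNReal.ofReal (t ^ 3) * μ K = μ K := by
      have h3 : t ^ 3 < 1 := pow_lt_one₀ ht.1.le ht.2 (by norm_num)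
      rw [← add_mul, ← ENNReal.ofReal_add (by linarith) (by have := ht.1; positivity)]
      simp
    have hfin : ENNReal.ofReal (t ^ 3) * μ K ≠ ⊤ :=
      ENNReal.mul_ne_top ENNReal.ofReal_ne_top hKtop
    refine (ENNReal.add_le_add_iff_right hfin).mp ?_
    rw [hsum]
    exact hmeas
  have hGc : Continuous fun t : ℝ => 1 - t ^ 3 := by fun_prop
  have hmG : Measurable fun x => ENNReal.ofReal (1 - x ^ 3) :=
    ENNReal.measurable_ofReal.comp hGc.measurable
  have hint : ∫⁻ t in Ioo (0 : ℝ) 1, ENNReal.ofReal (1 - t ^ 3) = ENNReal.ofReal (3 / 4) := by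
    rw [← integral_one_sub_cube, intervalIntegral.integral_of_le zero_le_one,
      integral_Ioc_eq_integral_Ioo, ofReal_integral_eq_lintegral_ofReal
        (hGc.integrableOn_Icc.mono_set Ioo_subset_Icc_self)]
    refine ae_restrict_of_forall_mem measurableSet_Ioo fun x hx => ?_
    have h3 : x ^ 3 < 1 := pow_lt_one₀ hx.1.le hx.2 (by norm_num)
    simp only [Pi.zero_apply]
    linarith
  calc ENNReal.ofReal (3 / 4) * μ K
      = ∫⁻ t in Ioo (0 : ℝ) 1, ENNReal.ofReal (1 - t ^ 3) * μ K := by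
        rw [lintegral_mul_const _ hmG, hint]
    _ ≤ ∫⁻ t in Ioo (0 : ℝ) 1, (μ.restrict K) {x | t < gauge K x} :=
        setLIntegral_mono' measurableSet_Ioo hpt
    _ ≤ ∫⁻ t in Ioi (0 : ℝ), (μ.restrict K) {x | t < gauge K x} :=
        lintegral_mono_set Ioo_subset_Ioi_self

/-- Total mass of the weight `1 + 2 * gauge`. -/
lemma weight_lintegral_ge (hdim : finrank ℝ E = 3) (μ : Measure E) [μ.IsAddHaarMeasure]
    {K : Set E} (hconv : Convex ℝ K) (hcomp : IsCompact K) (hnhds : K ∈ 𝓝 (0 : E)) :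
    ENNReal.ofReal (5 / 2) * μ K ≤ ∫⁻ x in K, ENNReal.ofReal (1 + 2 * gauge K x) ∂μ := by
  have hcg : Continuous (gauge K) := continuous_gauge hconv hnhds
  have hmg : Measurable fun x => ENNReal.ofReal (gauge K x) :=
    ENNReal.measurable_ofReal.comp hcg.measurable
  have hsplit : ∀ x, ENNReal.ofReal (1 + 2 * gauge K x) =
      1 + 2 * ENNReal.ofReal (gauge K x) := by
    intro x
    have h0 : 0 ≤ gauge K x := gauge_nonneg x
    rw [ENNReal.ofReal_add (by norm_num) (by positivity), ENNReal.ofReal_one,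
      ENNReal.ofReal_mul (by norm_num)]
    simp
  simp only [hsplit]
  rw [lintegral_add_left measurable_const, lintegral_const_mul _ hmg]
  have h := gauge_lintegral_ge hdim μ hconv hcomp hnhds
  have hc : (∫⁻ _ in K, (1 : ℝ≥0∞) ∂μ) = μ K := by simp
  rw [hc]
  calc ENNReal.ofReal (5 / 2) * μ K = μ K + 2 * (ENNReal.ofReal (3 / 4) * μ K) := by
        rw [← mul_assoc, show (2 : ℝ≥0∞) = ENNReal.ofReal 2 by simp,
          ← ENNReal.ofReal_mul (by norm_num)]
        nth_rewrite 2 [← one_mul (μ K)]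
        rw [← add_mul]
        congr 1
        rw [show (1 : ℝ≥0∞) = ENNReal.ofReal 1 by simp,
          ← ENNReal.ofReal_add (by norm_num) (by norm_num)]
        norm_num
    _ ≤ _ := by gcongr

end Gauge

section Transfer

variable {E : Type*} [NormedAddCommGroup E] [NormedSpace ℝ E] [FiniteDimensional ℝ E]
  [MeasurableSpace E] [BorelSpace E]
variable {V : Type*} [NormedAddCommGroup V] [NormedSpace ℝ V] [FiniteDimensional ℝ V]
  [MeasurableSpace V] [BorelSpace V]

lemma isSymBody_preimage (Φ : (V × ℝ) ≃L[ℝ] E) {K : Set E} (hconv : Convex ℝ K)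
    (hcomp : IsCompact K) (hsymm : ∀ x ∈ K, -x ∈ K) (hnhds : K ∈ 𝓝 (0 : E)) :
    IsSymBody (Φ ⁻¹' K) where
  convex := hconv.linear_preimage (Φ.toLinearEquiv.toLinearMap)
  compact := (Φ.toHomeomorph.isCompact_preimage).mpr hcomp
  symm := by
    intro p hp
    simp only [mem_preimage, map_neg] at hp ⊢
    exact hsymm _ hp
  nhds := by
    apply Φ.continuous.continuousAt.preimage_mem_nhds
    simpa using hnhds

lemma gauge_preimage_eq (Φ : (V × ℝ) ≃L[ℝ] E) (K : Set E) (p : V × ℝ) :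
    gauge (Φ ⁻¹' K) p = gauge K (Φ p) := by
  unfold gauge
  congr 1
  ext r
  simp only [mem_ofPred_eq, and_congr_right_iff]
  intro hr
  rw [mem_smul_set_iff_inv_smul_mem₀ hr.ne', mem_smul_set_iff_inv_smul_mem₀ hr.ne']
  simp

/-- The covering estimate for one cylinder, in the ambient space. -/
lemma cover_piece (hdim : finrank ℝ V = 2) (lam : Measure V) [lam.IsAddHaarMeasure]
    (μ : Measure E) [μ.IsAddHaarMeasure] (Φ : (V × ℝ) ≃L[ℝ] E) {K : Set E} (hconv : Convex ℝ K)
    (hcomp : IsCompact K) (hsymm : ∀ x ∈ K, -x ∈ K) (hnhds : K ∈ 𝓝 (0 : E))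
    {S : Set V} (hS : MeasurableSet S) :
    (∫⁻ x in K ∩ {x | (Φ.symm x).1 ∈ S}, ENNReal.ofReal (1 + 2 * gauge K x) ∂μ) *
        lam (Prod.fst '' (Φ ⁻¹' K)) ≤ 6 * μ K * lam S := by
  have hL := isSymBody_preimage Φ hconv hcomp hsymm hnhds
  set L := Φ ⁻¹' K with hLdef
  have hKm : MeasurableSet K := hcomp.isClosed.measurableSet
  have hΦm : Measurable Φ := Φ.continuous.measurable
  have hcg : Continuous (gauge K) := continuous_gauge hconv hnhds
  have hFm : Measurable fun x => ENNReal.ofReal (1 + 2 * gauge K x) := by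
    have : Continuous fun x => 1 + 2 * gauge K x := by fun_prop
    exact ENNReal.measurable_ofReal.comp this.measurable
  have hCm : MeasurableSet (K ∩ {x | (Φ.symm x).1 ∈ S}) :=
    hKm.inter ((continuous_fst.comp Φ.symm.continuous).measurable hS)
  let ν : Measure E := Measure.map Φ (lam.prod volume)
  have : ν.IsAddHaarMeasure := Φ.isAddHaarMeasure_map (lam.prod volume)
  have hsm := Measure.isAddLeftInvariant_eq_smul μ ν
  set c : NNReal := μ.addHaarScalarFactor ν with hc
  have hμK : μ K = c * (lam.prod volume) L := by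
    rw [hsm, Measure.smul_apply, Measure.map_apply hΦm hKm, ENNReal.smul_def, smul_eq_mul]
  have hpre : Φ ⁻¹' (K ∩ {x | (Φ.symm x).1 ∈ S}) = L ∩ Prod.fst ⁻¹' S := by
    ext p
    simp [hLdef]
  have hint : ∫⁻ x in K ∩ {x | (Φ.symm x).1 ∈ S}, ENNReal.ofReal (1 + 2 * gauge K x) ∂μ =
      c * ∫⁻ p in L ∩ Prod.fst ⁻¹' S, ENNReal.ofReal (1 + 2 * gauge L p) ∂(lam.prod volume) := by
    rw [hsm, Measure.restrict_smul, lintegral_smul_measure, ENNReal.smul_def, smul_eq_mul,
      setLIntegral_map hCm hFm hΦm, hpre]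
    congr 2
    ext p
    rw [hLdef, gauge_preimage_eq]
  have hb := cyl_bound hdim lam hL hS
  rw [hint, hμK]
  calc (c * ∫⁻ p in L ∩ Prod.fst ⁻¹' S, ENNReal.ofReal (1 + 2 * gauge L p) ∂(lam.prod volume)) *
        lam (Prod.fst '' L)
      = c * ((∫⁻ p in L ∩ Prod.fst ⁻¹' S, ENNReal.ofReal (1 + 2 * gauge L p) ∂(lam.prod volume)) *
        lam (Prod.fst '' L)) := by ring
    _ ≤ c * (6 * (lam.prod volume) L * lam S) := by gcongr
    _ = 6 * (c * (lam.prod volume) L) * lam S := by ring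

end Transfer

section Linear

variable {E : Type*} [NormedAddCommGroup E] [NormedSpace ℝ E] [FiniteDimensional ℝ E]
  [MeasurableSpace E] [BorelSpace E]
variable {V : Type*} [NormedAddCommGroup V] [NormedSpace ℝ V] [FiniteDimensional ℝ V]

omit [MeasurableSpace E] [BorelSpace E] in
/-- A surjective linear map with one-dimensional kernel is the first coordinate of a splitting. -/
lemma exists_splitting (P : E →ₗ[ℝ] V) (hP : Function.Surjective P)
    (hdim : finrank ℝ E = finrank ℝ V + 1) :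
    ∃ Φ : (V × ℝ) ≃L[ℝ] E, ∀ x, (Φ.symm x).1 = P x := by
  obtain ⟨s, hs⟩ := LinearMap.exists_rightInverse_of_surjective P (LinearMap.range_eq_top.mpr hP)
  have hs' : ∀ v, P (s v) = v := fun v => by simpa using LinearMap.congr_fun hs v
  have hker : finrank ℝ (LinearMap.ker P) = 1 := by
    have h := LinearMap.finrank_range_add_finrank_ker P
    rw [LinearMap.range_eq_top.mpr hP, finrank_top] at h
    omega
  have hpos : 0 < finrank ℝ (LinearMap.ker P) := by omega
  have hnt : Nontrivial (LinearMap.ker P) := Module.finrank_pos_iff.mp hpos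
  obtain ⟨⟨u, huker⟩, hu0⟩ := exists_ne (0 : LinearMap.ker P)
  have hu : u ≠ 0 := fun h => hu0 (Subtype.ext h)
  have hPu : P u = 0 := huker
  let Ψ : (V × ℝ) →ₗ[ℝ] E := s.coprod (LinearMap.toSpanSingleton ℝ E u)
  have hΨ : ∀ p, Ψ p = s p.1 + p.2 • u := fun p => by simp [Ψ]
  have hPΨ : ∀ p, P (Ψ p) = p.1 := fun p => by
    rw [hΨ, map_add, map_smul, hPu, hs']
    simp
  have hinj : Function.Injective Ψ := by
    rw [injective_iff_map_eq_zero]
    intro p hp
    have h1 : p.1 = 0 := by rw [← hPΨ p, hp, map_zero]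
    have h2 : p.2 • u = 0 := by
      have := hΨ p
      rw [hp, h1, map_zero, zero_add] at this
      exact this.symm
    have h3 : p.2 = 0 := (smul_eq_zero.mp h2).resolve_right hu
    exact Prod.ext h1 h3
  have hfin : finrank ℝ (V × ℝ) = finrank ℝ E := by
    rw [Module.finrank_prod, hdim]
    simp
  let Φ : (V × ℝ) ≃L[ℝ] E := (LinearMap.linearEquivOfInjective Ψ hinj hfin).toContinuousLinearEquiv
  refine ⟨Φ, fun x => ?_⟩
  have hx : Ψ (Φ.symm x) = x := Φ.apply_symm_apply x
  calc (Φ.symm x).1 = P (Ψ (Φ.symm x)) := (hPΨ _).symm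
    _ = P x := by rw [hx]

/-- **Cylinder coverings of centrally symmetric bodies, in linear coordinates.** -/
theorem cylinder_cover_bound [MeasurableSpace V] [BorelSpace V] (lam : Measure V)
    [lam.IsAddHaarMeasure] (μ : Measure E) [μ.IsAddHaarMeasure]
    (hdimV : finrank ℝ V = 2) (hdim : finrank ℝ E = 3) {K : Set E} (hcomp : IsCompact K)
    (hconv : Convex ℝ K) (hint : (interior K).Nonempty) (hsymm : ∀ x ∈ K, -x ∈ K)
    {m : ℕ} (P : Fin m → E →ₗ[ℝ] V) (hP : ∀ i, Function.Surjective (P i)) (B : Fin m → Set V)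
    (hcover : K ⊆ ⋃ i, {x | P i x ∈ B i}) :
    (5 / 12 : ℝ≥0∞) ≤ ∑ i, lam (B i) / lam (P i '' K) := by
  -- `K` is a neighbourhood of the origin.
  have hnhds : K ∈ 𝓝 (0 : E) := by
    obtain ⟨x, hx⟩ := hint
    have hx' : K ∈ 𝓝 x := mem_interior_iff_mem_nhds.mp hx
    have hnx : K ∈ 𝓝 (-x) := by
      have h1 : (fun y => -y) ⁻¹' K ∈ 𝓝 (-x) :=
        continuous_neg.continuousAt.preimage_mem_nhds (by simpa using hx')
      exact Filter.mem_of_superset h1 (fun y hy => by simpa using hsymm _ hy)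
    have hi : (0 : E) ∈ interior K := by
      have hconvi := hconv.interior
      have h1 := hconvi (mem_interior_iff_mem_nhds.mpr hx') (mem_interior_iff_mem_nhds.mpr hnx)
        (show (0 : ℝ) ≤ 1 / 2 by norm_num) (show (0 : ℝ) ≤ 1 / 2 by norm_num) (by norm_num)
      simpa using h1
    exact mem_interior_iff_mem_nhds.mp hi
  have hKm : MeasurableSet K := hcomp.isClosed.measurableSet
  have hm0 : μ K ≠ 0 := (Measure.measure_pos_of_mem_nhds μ hnhds).ne'
  have hmtop : μ K ≠ ⊤ := hcomp.measure_lt_top.ne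
  -- the splittings
  have hsplit : ∀ i, ∃ Φ : (V × ℝ) ≃L[ℝ] E, ∀ x, (Φ.symm x).1 = P i x := fun i =>
    exists_splitting (P i) (hP i) (by omega)
  choose Φ hΦ using hsplit
  -- the projections
  have hD : ∀ i, Prod.fst '' (Φ i ⁻¹' K) = P i '' K := by
    intro i
    ext v
    constructor
    · rintro ⟨p, hp, rfl⟩
      refine ⟨Φ i p, hp, ?_⟩
      rw [← hΦ, ContinuousLinearEquiv.symm_apply_apply]
    · rintro ⟨x, hx, rfl⟩
      refine ⟨(Φ i).symm x, ?_, hΦ i x⟩
      simpa using hx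
  have hL : ∀ i, IsSymBody (Φ i ⁻¹' K) := fun i => isSymBody_preimage (Φ i) hconv hcomp hsymm hnhds
  have hD0 : ∀ i, lam (P i '' K) ≠ 0 := fun i => by
    rw [← hD]
    exact (Measure.measure_pos_of_mem_nhds lam (hL i).fst_nhds).ne'
  have hDtop : ∀ i, lam (P i '' K) ≠ ⊤ := fun i => by
    rw [← hD]
    exact (hL i).fst_compact.measure_lt_top.ne
  -- measurable hulls of the bases
  let S : ∀ i, Set V := fun i => toMeasurable lam (B i)
  have hSm : ∀ i, MeasurableSet (S i) := fun i => measurableSet_toMeasurable _ _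
  have hBS : ∀ i, B i ⊆ S i := fun i => subset_toMeasurable _ _
  have hSvol : ∀ i, lam (S i) = lam (B i) := fun i => measure_toMeasurable _
  -- weight
  set F : E → ℝ≥0∞ := fun x => ENNReal.ofReal (1 + 2 * gauge K x) with hF
  have h1 : ENNReal.ofReal (5 / 2) * μ K ≤ ∫⁻ x in K, F x ∂μ :=
    weight_lintegral_ge hdim μ hconv hcomp hnhds
  have hsubU : K ⊆ ⋃ i, K ∩ {x | ((Φ i).symm x).1 ∈ S i} := by
    intro x hx
    obtain ⟨i, hi⟩ := mem_iUnion.mp (hcover hx)
    refine mem_iUnion.mpr ⟨i, hx, ?_⟩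
    simp only [mem_ofPred_eq, hΦ]
    exact hBS i hi
  have h2 : ∫⁻ x in K, F x ∂μ ≤ ∑ i, ∫⁻ x in K ∩ {x | ((Φ i).symm x).1 ∈ S i}, F x ∂μ := by
    calc ∫⁻ x in K, F x ∂μ ≤ ∫⁻ x in ⋃ i, K ∩ {x | ((Φ i).symm x).1 ∈ S i}, F x ∂μ :=
          lintegral_mono_set hsubU
      _ ≤ ∑' i, ∫⁻ x in K ∩ {x | ((Φ i).symm x).1 ∈ S i}, F x ∂μ := lintegral_iUnion_le _ _
      _ = ∑ i, ∫⁻ x in K ∩ {x | ((Φ i).symm x).1 ∈ S i}, F x ∂μ := tsum_fintype _
  have h3 : ∀ i, ∫⁻ x in K ∩ {x | ((Φ i).symm x).1 ∈ S i}, F x ∂μ ≤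
      6 * μ K * (lam (B i) / lam (P i '' K)) := by
    intro i
    have h := cover_piece hdimV lam μ (Φ i) hconv hcomp hsymm hnhds (hSm i)
    rw [hD i, hSvol i] at h
    rw [← mul_div_assoc]
    exact (ENNReal.le_div_iff_mul_le (Or.inl (hD0 i)) (Or.inl (hDtop i))).mpr h
  set T := ∑ i, lam (B i) / lam (P i '' K) with hT
  have h4 : ENNReal.ofReal (5 / 2) * μ K ≤ 6 * μ K * T := by
    calc ENNReal.ofReal (5 / 2) * μ K ≤ ∫⁻ x in K, F x ∂μ := h1
      _ ≤ ∑ i, ∫⁻ x in K ∩ {x | ((Φ i).symm x).1 ∈ S i}, F x ∂μ := h2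
      _ ≤ ∑ i, 6 * μ K * (lam (B i) / lam (P i '' K)) :=
          Finset.sum_le_sum fun i _ => h3 i
      _ = 6 * μ K * T := by rw [hT, Finset.mul_sum]
  have h5 : ENNReal.ofReal (5 / 2) ≤ 6 * T := by
    have : ENNReal.ofReal (5 / 2) * μ K ≤ (6 * T) * μ K := by
      calc _ ≤ 6 * μ K * T := h4
        _ = (6 * T) * μ K := by ring
    exact (ENNReal.mul_le_mul_iff_left hm0 hmtop).mp this
  have h6 : (5 / 12 : ℝ≥0∞) = 6⁻¹ * ENNReal.ofReal (5 / 2) := by
    have h60 : (6 : ℝ≥0∞) ≠ 0 := by norm_num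
    have h6t : (6 : ℝ≥0∞) ≠ ⊤ := by norm_num
    rw [show (5 / 2 : ℝ) = 5 * 2⁻¹ by norm_num, ENNReal.ofReal_mul (by norm_num),
      ENNReal.ofReal_inv_of_pos (by norm_num)]
    simp only [ENNReal.ofReal_ofNat]
    rw [ENNReal.div_eq_inv_mul, show (12 : ℝ≥0∞) = 6 * 2 by norm_num,
      ENNReal.mul_inv (Or.inl h60) (Or.inl h6t)]
    ring
  rw [h6]
  calc 6⁻¹ * ENNReal.ofReal (5 / 2) ≤ 6⁻¹ * (6 * T) := by gcongr
    _ = T := by
      rw [← mul_assoc, ENNReal.inv_mul_cancel (by norm_num) (by norm_num), one_mul]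

end Linear

section Frames

open Matrix

/-- The statement for orthonormal frames of `ℝ³`: the plane of a cylinder is given by its
orthonormal basis `e, f`, its axis by the unit vector `u`. -/
theorem frame_cover_bound (K : Set (Fin 3 → ℝ))
    (hK_compact : IsCompact K) (hK_convex : Convex ℝ K) (hK_interior : (interior K).Nonempty)
    (hK_symm : ∀ x ∈ K, -x ∈ K)
    {m : ℕ} (e f u : Fin m → Fin 3 → ℝ)
    (hframe : ∀ i, e i ⬝ᵥ e i = 1 ∧ f i ⬝ᵥ f i = 1 ∧ u i ⬝ᵥ u i = 1 ∧
      e i ⬝ᵥ f i = 0 ∧ e i ⬝ᵥ u i = 0 ∧ f i ⬝ᵥ u i = 0)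
    (B : Fin m → Set (ℝ × ℝ))
    (hcover : K ⊆ ⋃ i, {x | ∃ b ∈ B i, ∃ t : ℝ, x = b.1 • e i + b.2 • f i + t • u i}) :
    (5 / 12 : ℝ≥0∞) ≤
      ∑ i, volume (B i) / volume ((fun x => (e i ⬝ᵥ x, f i ⬝ᵥ x)) '' K) := by
  let P : Fin m → (Fin 3 → ℝ) →ₗ[ℝ] ℝ × ℝ := fun i =>
    { toFun := fun x => (e i ⬝ᵥ x, f i ⬝ᵥ x)
      map_add' := fun x y => by simp [dotProduct_add]
      map_smul' := fun c x => by simp [dotProduct_smul] }
  have hPapply : ∀ i x, P i x = (e i ⬝ᵥ x, f i ⬝ᵥ x) := fun i x => rfl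
  have hP : ∀ i, Function.Surjective (P i) := by
    intro i
    rintro ⟨a, b⟩
    obtain ⟨h1, h2, -, h4, -, -⟩ := hframe i
    refine ⟨a • e i + b • f i, ?_⟩
    rw [hPapply]
    have h4' : f i ⬝ᵥ e i = 0 := by rw [dotProduct_comm]; exact h4
    simp [dotProduct_add, dotProduct_smul, h1, h2, h4, h4']
  have h := cylinder_cover_bound (volume : Measure (ℝ × ℝ)) (volume : Measure (Fin 3 → ℝ))
    (by simp) (by simp) hK_compact hK_convex hK_interior hK_symm P hP B (by
      intro x hx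
      obtain ⟨i, b, hb, t, rfl⟩ := mem_iUnion.mp (hcover hx)
      refine mem_iUnion.mpr ⟨i, ?_⟩
      obtain ⟨h1, h2, -, h4, h5, h6⟩ := hframe i
      have h4' : f i ⬝ᵥ e i = 0 := by rw [dotProduct_comm]; exact h4
      have : P i (b.1 • e i + b.2 • f i + t • u i) = b := by
        rw [hPapply]
        simp [dotProduct_add, dotProduct_smul, h1, h2, h4, h4', h5, h6]
      simp only [mem_ofPred_eq, this]
      exact hb)
  exact h

end Frames

end Vale.Agent.helper6.Bang
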