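import Mathlib

/-!
Bang's plank theorem for plane sections, in coordinates, and its use for cylinder coverings whose
axes are parallel to one plane.
-/

open MeasureTheory Set Matrix
open scoped ENNReal

namespace Vale.Agent.helper6.BangPlank

abbrev E3 := Fin 3 → ℝ

/-- the sign of a boolean -/
def sgn (b : Bool) : ℝ := if b then 1 else -1

lemma sgn_flip (b : Bool) : sgn (!b) = - sgn b := by cases b <;> simp [sgn]

lemma sgn_sq (b : Bool) : sgn b * sgn b = 1 := by cases b <;> simp [sgn]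

/-- Bang's sign lemma. -/
lemma bang_signs {J : Type} [Fintype J] [DecidableEq J] (v : J → E3) (w d : J → ℝ) (c : E3)
    (hv : ∀ j, v j ⬝ᵥ v j = 1) (hw : ∀ j, 0 < w j) :
    ∃ ε : J → Bool, ∀ k, w k / 2 ≤ |(c + ∑ j, (sgn (ε j) * (w j / 2)) • v j) ⬝ᵥ v k - d k| := by
  classical
  let y : (J → Bool) → E3 := fun ε => ∑ j, (sgn (ε j) * (w j / 2)) • v j
  let m : J → ℝ := fun j => d j - c ⬝ᵥ v j
  let L : (J → Bool) → ℝ := fun ε => ∑ j, sgn (ε j) * (w j / 2) * m j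
  let Φ : (J → Bool) → ℝ := fun ε => y ε ⬝ᵥ y ε - 2 * L ε
  obtain ⟨ε, hε⟩ := Finite.exists_max Φ
  refine ⟨ε, fun k => ?_⟩
  set σ := sgn (ε k) with hσ
  have hσ2 : σ * σ = 1 := sgn_sq _
  let ε' : J → Bool := Function.update ε k (!ε k)
  have hk' : sgn (ε' k) = -σ := by simp [ε', sgn_flip, hσ]
  have hne : ∀ j, j ≠ k → ε' j = ε j := fun j hj => by simp [ε', Function.update_of_ne hj]
  have hy : y ε' = y ε - (σ * w k) • v k := by
    have : y ε' - y ε = - ((σ * w k) • v k) := by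
      simp only [y]
      rw [← Finset.sum_sub_distrib, Finset.sum_eq_single k]
      · rw [hk', ← sub_smul, ← neg_smul]
        congr 1
        ring
      · intro j _ hj
        rw [hne j hj, sub_self]
      · intro h
        exact absurd (Finset.mem_univ k) h
    rw [sub_eq_add_neg, ← this]
    abel
  have hL : L ε' = L ε - σ * w k * m k := by
    have : L ε' - L ε = - (σ * w k * m k) := by
      simp only [L]
      rw [← Finset.sum_sub_distrib, Finset.sum_eq_single k]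
      · rw [hk']
        ring
      · intro j _ hj
        rw [hne j hj, sub_self]
      · intro h
        exact absurd (Finset.mem_univ k) h
    linarith
  have hmax := hε ε'
  have hexp : y ε' ⬝ᵥ y ε' = y ε ⬝ᵥ y ε - 2 * (σ * w k) * (y ε ⬝ᵥ v k) + (w k) ^ 2 := by
    rw [hy]
    simp only [sub_dotProduct, dotProduct_sub, smul_dotProduct, dotProduct_smul, smul_eq_mul, hv k]
    rw [dotProduct_comm (v k) (y ε)]
    linear_combination (w k) ^ 2 * hσ2
  have hineq : (w k) ^ 2 ≤ 2 * (σ * w k) * (y ε ⬝ᵥ v k - m k) := by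
    have : Φ ε' ≤ Φ ε := hmax
    simp only [Φ] at this
    rw [hexp, hL] at this
    nlinarith
  have hb : w k / 2 ≤ σ * (y ε ⬝ᵥ v k - m k) := by
    have hpos := hw k
    have : w k * (w k / 2) ≤ w k * (σ * (y ε ⬝ᵥ v k - m k)) := by nlinarith
    exact le_of_mul_le_mul_left this hpos
  have habs : σ * (y ε ⬝ᵥ v k - m k) ≤ |y ε ⬝ᵥ v k - m k| := by
    have h1 : |σ| = 1 := by
      have : |σ| * |σ| = 1 := by rw [← abs_mul, hσ2]; simp
      nlinarith [abs_nonneg σ]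
    calc σ * (y ε ⬝ᵥ v k - m k) ≤ |σ * (y ε ⬝ᵥ v k - m k)| := le_abs_self _
      _ = _ := by rw [abs_mul, h1, one_mul]
  have hval : (c + y ε) ⬝ᵥ v k - d k = y ε ⬝ᵥ v k - m k := by
    simp only [add_dotProduct, m]
    ring
  show w k / 2 ≤ |(c + y ε) ⬝ᵥ v k - d k|
  rw [hval]
  linarith

/-- Unit vectors have dot product at least `-1`. -/
lemma dot_ge_neg_one {a b : E3} (ha : a ⬝ᵥ a = 1) (hb : b ⬝ᵥ b = 1) : -1 ≤ a ⬝ᵥ b := by
  have h : 0 ≤ (a + b) ⬝ᵥ (a + b) := by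
    simp only [dotProduct]
    exact Finset.sum_nonneg fun i _ => mul_self_nonneg _
  simp only [add_dotProduct, dotProduct_add, ha, hb] at h
  rw [dotProduct_comm b a] at h
  linarith

lemma repr_functional (f : E3 →L[ℝ] ℝ) : ∃ y : E3, ∀ x, f x = y ⬝ᵥ x := by
  refine ⟨fun i => f (Pi.single i 1), fun x => ?_⟩
  have hx : x = ∑ i, x i • (Pi.single i (1 : ℝ) : E3) := by
    ext j
    simp [Finset.sum_apply, Pi.single_apply]
  conv_lhs => rw [hx]
  rw [map_sum]
  simp only [map_smul, smul_eq_mul, dotProduct]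
  exact Finset.sum_congr rfl fun i _ => mul_comm _ _

/-- A section with all widths at least `W` has a chord of length `W` in each direction of its plane. -/
lemma chord_exists {S : Set E3} (hc : IsCompact S) (hv : Convex ℝ S) {n g : E3} {t W : ℝ} (hW0 : 0 ≤ W)
    (hn : n ⬝ᵥ n = 1) (hS : ∀ x ∈ S, n ⬝ᵥ x = t) (hne : S.Nonempty)
    (hg : g ⬝ᵥ g = 1) (hgn : g ⬝ᵥ n = 0)
    (hW : ∀ g' : E3, g' ⬝ᵥ g' = 1 → g' ⬝ᵥ n = 0 → ∃ x ∈ S, ∃ x' ∈ S, W ≤ (x' - x) ⬝ᵥ g') :
    ∃ x ∈ S, ∃ y ∈ S, y = x + W • g := by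
  classical
  let D : Set E3 := (fun p : E3 × E3 => p.2 - p.1) '' (S ×ˢ S)
  have hDc : IsCompact D := (hc.prod hc).image (by fun_prop)
  have hDv : Convex ℝ D := by
    have : Convex ℝ (S ×ˢ S) := hv.prod hv
    exact this.linear_image ((LinearMap.snd ℝ E3 E3) - (LinearMap.fst ℝ E3 E3))
  by_cases hmem : W • g ∈ D
  · obtain ⟨⟨x, y⟩, ⟨hx, hy⟩, hxy⟩ := hmem
    refine ⟨x, hx, y, hy, ?_⟩
    simp only at hxy
    rw [← hxy]
    abel
  exfalso
  obtain ⟨f, u, hfu, hfD⟩ := geometric_hahn_banach_point_closed hDv hDc.isClosed hmem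
  obtain ⟨y, hy⟩ := repr_functional f
  obtain ⟨x₀, hx₀⟩ := hne
  have h0 : (0 : E3) ∈ D := ⟨(x₀, x₀), ⟨hx₀, hx₀⟩, by simp⟩
  have hu0 : u < 0 := by simpa using hfD 0 h0
  let y₀ : E3 := y - (y ⬝ᵥ n) • n
  have hy₀n : y₀ ⬝ᵥ n = 0 := by
    simp only [y₀, sub_dotProduct, smul_dotProduct, hn, smul_eq_mul]
    ring
  have hfy₀ : ∀ b : E3, n ⬝ᵥ b = 0 → f b = y₀ ⬝ᵥ b := by
    intro b hb
    rw [hy]
    simp only [y₀, sub_dotProduct, smul_dotProduct, hb, smul_eq_mul]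
    ring
  have hDn : ∀ b ∈ D, n ⬝ᵥ b = 0 := by
    rintro _ ⟨⟨a, b⟩, ⟨ha, hb⟩, rfl⟩
    simp only [dotProduct_sub, hS a ha, hS b hb, sub_self]
  have hgn' : n ⬝ᵥ g = 0 := by rw [dotProduct_comm]; exact hgn
  have hfg : f (W • g) = W * (y₀ ⬝ᵥ g) := by
    rw [hfy₀ _ (by simp [dotProduct_smul, hgn'])]
    simp [dotProduct_smul]
  by_cases hy0 : y₀ ⬝ᵥ y₀ = 0
  · have hy00 : y₀ = 0 := by
      exact dotProduct_self_eq_zero.mp hy0
    rw [hfg, hy00] at hfu
    simp at hfu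
    linarith
  · have hpos : 0 < y₀ ⬝ᵥ y₀ := by
      refine lt_of_le_of_ne ?_ (Ne.symm hy0)
      simp only [dotProduct]
      exact Finset.sum_nonneg fun i _ => mul_self_nonneg _
    set ρ := Real.sqrt (y₀ ⬝ᵥ y₀) with hρ
    have hρpos : 0 < ρ := Real.sqrt_pos.mpr hpos
    have hρsq : ρ * ρ = y₀ ⬝ᵥ y₀ := Real.mul_self_sqrt hpos.le
    let g' : E3 := ρ⁻¹ • y₀
    have hg'1 : g' ⬝ᵥ g' = 1 := by
      simp only [g', smul_dotProduct, dotProduct_smul, smul_eq_mul, ← hρsq]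
      field_simp
    have hg'n : g' ⬝ᵥ n = 0 := by
      simp only [g', smul_dotProduct, hy₀n, smul_eq_mul, mul_zero]
    have hy₀g' : ∀ b : E3, y₀ ⬝ᵥ b = ρ * (g' ⬝ᵥ b) := by
      intro b
      simp only [g', smul_dotProduct, smul_eq_mul]
      field_simp
    obtain ⟨x, hx, x', hx', hwid⟩ := hW g' hg'1 hg'n
    -- the two differences
    have hb1 : x - x' ∈ D := ⟨(x', x), ⟨hx', hx⟩, rfl⟩
    have h1 := hfD _ hb1
    rw [hfy₀ _ (hDn _ hb1), hy₀g'] at h1
    have h2 : (x - x') ⬝ᵥ g' = - ((x' - x) ⬝ᵥ g') := by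
      simp only [sub_dotProduct]
      ring
    rw [dotProduct_comm g', h2] at h1
    have h3 : W * (y₀ ⬝ᵥ g) < u := by rw [← hfg]; exact hfu
    rw [hy₀g'] at h3
    have h4 : -1 ≤ g' ⬝ᵥ g := dot_ge_neg_one hg'1 hg
    have h6 : W * (ρ * (g' ⬝ᵥ g)) ≥ - (W * ρ) := by nlinarith [mul_nonneg hW0 hρpos.le]
    have h7 : ρ * (- ((x' - x) ⬝ᵥ g')) ≤ ρ * (- W) :=
      mul_le_mul_of_nonneg_left (by linarith) hρpos.le
    nlinarith

/-- Bang's plank theorem for a plane section: planks of total width less than all the widths of the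
section leave a point of the section outside all of them. -/
lemma bang_finite {S : Set E3} (hc : IsCompact S) (hv : Convex ℝ S) {n : E3} {t W : ℝ}
    (hn : n ⬝ᵥ n = 1) (hS : ∀ x ∈ S, n ⬝ᵥ x = t) (hne : S.Nonempty)
    (hW : ∀ g' : E3, g' ⬝ᵥ g' = 1 → g' ⬝ᵥ n = 0 → ∃ x ∈ S, ∃ x' ∈ S, W ≤ (x' - x) ⬝ᵥ g')
    {J : Type} [Fintype J] [DecidableEq J] (v : J → E3) (w d : J → ℝ)
    (hv1 : ∀ j, v j ⬝ᵥ v j = 1) (hvn : ∀ j, v j ⬝ᵥ n = 0) (hw : ∀ j, 0 < w j)
    (hsum : ∑ j, w j < W) :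
    ∃ z ∈ S, ∀ j, w j / 2 < |z ⬝ᵥ v j - d j| := by
  classical
  rcases isEmpty_or_nonempty J with hJ | hJ
  · obtain ⟨z, hz⟩ := hne
    exact ⟨z, hz, fun j => (hJ.false j).elim⟩
  set Λ := ∑ j, w j with hΛ
  have hΛpos : 0 < Λ := Finset.sum_pos (fun j _ => hw j) Finset.univ_nonempty
  have hWpos : 0 < W := hΛpos.trans hsum
  have hchord : ∀ j, ∃ x ∈ S, ∃ y ∈ S, y = x + W • v j := fun j =>
    chord_exists hc hv hWpos.le hn hS hne (hv1 j) (hvn j) hW
  choose x hx y hy hxy using hchord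
  let r : ℝ := W / Λ
  have hr : 1 < r := (one_lt_div hΛpos).mpr hsum
  let w' : J → ℝ := fun j => r * w j
  have hw' : ∀ j, 0 < w' j := fun j => mul_pos (by linarith) (hw j)
  let lam : J → ℝ := fun j => w j / Λ
  have hlam0 : ∀ j, 0 ≤ lam j := fun j => (div_pos (hw j) hΛpos).le
  have hlam1 : ∑ j, lam j = 1 := by
    simp only [lam]
    rw [← Finset.sum_div, ← hΛ]
    exact div_self hΛpos.ne'
  have hlamW : ∀ j, lam j * W = w' j := by
    intro j
    simp only [lam, w', r]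
    field_simp
  let c : E3 := ∑ j, lam j • ((1 / 2 : ℝ) • (x j + y j))
  obtain ⟨ε, hε⟩ := bang_signs v w' d c hv1 hw'
  refine ⟨c + ∑ j, (sgn (ε j) * (w' j / 2)) • v j, ?_, fun j => ?_⟩
  · have hz : c + ∑ j, (sgn (ε j) * (w' j / 2)) • v j =
        ∑ j, lam j • (if ε j then y j else x j) := by
      simp only [c]
      rw [← Finset.sum_add_distrib]
      refine Finset.sum_congr rfl fun j _ => ?_
      have hw'j : w' j = lam j * W := (hlamW j).symm
      rw [hw'j]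
      cases hb : ε j
      · simp only [sgn, hxy j, if_false, Bool.false_eq_true]
        ext i
        simp only [Pi.add_apply, Pi.smul_apply, smul_eq_mul]
        ring
      · simp only [sgn, hxy j, if_true]
        ext i
        simp only [Pi.add_apply, Pi.smul_apply, smul_eq_mul]
        ring
    rw [hz]
    refine hv.sum_mem (fun j _ => hlam0 j) hlam1 (fun j _ => ?_)
    split_ifs
    · exact hy j
    · exact hx j
  · have h1 := hε j
    have h2 : w j / 2 < w' j / 2 := by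
      have : w j < r * w j := by nlinarith [hw j]
      simp only [w']
      linarith
    exact lt_of_lt_of_le h2 h1

lemma norm_le_one_of_unit {g : E3} (hg : g ⬝ᵥ g = 1) : ‖g‖ ≤ 1 := by
  refine (pi_norm_le_iff_of_nonneg zero_le_one).mpr fun j => ?_
  have h : g j * g j ≤ g ⬝ᵥ g := by
    simp only [dotProduct]
    exact Finset.single_le_sum (f := fun i => g i * g i) (fun i _ => mul_self_nonneg _)
      (Finset.mem_univ j)
  rw [hg] at h
  rw [Real.norm_eq_abs]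
  exact abs_le_one_iff_mul_self_le_one.mpr h

lemma continuous_dot (g : E3) : Continuous fun x : E3 => x ⬝ᵥ g := by
  simp only [dotProduct]
  fun_prop

/-- Plank theorem for a plane section with arbitrary sets of lines. -/
lemma slice_measure {S : Set E3} (hc : IsCompact S) (hv : Convex ℝ S) {n : E3} {t W : ℝ}
    (hn : n ⬝ᵥ n = 1) (hS : ∀ x ∈ S, n ⬝ᵥ x = t) (hne : S.Nonempty) (hW0 : 0 < W)
    (hW : ∀ g' : E3, g' ⬝ᵥ g' = 1 → g' ⬝ᵥ n = 0 → ∃ x ∈ S, ∃ x' ∈ S, W ≤ (x' - x) ⬝ᵥ g')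
    {m : ℕ} (g : Fin m → E3) (hg : ∀ i, g i ⬝ᵥ g i = 1) (hgn : ∀ i, g i ⬝ᵥ n = 0)
    (D : Fin m → Set ℝ) (hcov : ∀ x ∈ S, ∃ i, x ⬝ᵥ g i ∈ D i) :
    ENNReal.ofReal W ≤ ∑ i, volume (D i) := by
  classical
  by_contra hlt
  push Not at hlt
  set a := ∑ i, volume (D i) with ha
  have hatop : a ≠ ⊤ := (hlt.trans_le le_top).ne
  have hDtop : ∀ i, volume (D i) ≠ ⊤ := by
    intro i
    have : volume (D i) ≤ a := Finset.single_le_sum (f := fun i => volume (D i))
      (fun _ _ => zero_le) (Finset.mem_univ i)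
    exact ((this.trans_lt hlt).trans_le le_top).ne
  set a' := a.toReal with ha'
  have ha'0 : 0 ≤ a' := ENNReal.toReal_nonneg
  have haa : a = ENNReal.ofReal a' := (ENNReal.ofReal_toReal hatop).symm
  have ha'W : a' < W := by
    rw [haa] at hlt
    exact (ENNReal.ofReal_lt_ofReal_iff hW0).mp hlt
  let e : ℝ := (W - a') / (2 * (m + 1))
  have hepos : 0 < e := div_pos (by linarith) (by positivity)
  have hε : ENNReal.ofReal e ≠ 0 := by
    simpa using hepos
  have hU : ∀ i, ∃ U, U ⊇ D i ∧ IsOpen U ∧ volume U < volume (D i) + ENNReal.ofReal e :=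
    fun i => (D i).exists_isOpen_lt_add (hDtop i) hε
  choose U hU1 hU2 hU3 using hU
  have hsumU : ∑ i, volume (U i) ≤ ENNReal.ofReal (a' + m * e) := by
    calc ∑ i, volume (U i) ≤ ∑ i, (volume (D i) + ENNReal.ofReal e) :=
          Finset.sum_le_sum fun i _ => (hU3 i).le
      _ = a + m * ENNReal.ofReal e := by
          rw [Finset.sum_add_distrib, Finset.sum_const]
          simp [ha]
      _ = ENNReal.ofReal (a' + m * e) := by
          rw [ENNReal.ofReal_add ha'0 (by positivity), ENNReal.ofReal_mul (by positivity), ← haa]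
          simp
  have hme : a' + m * e < W := by
    have h1 : (m : ℝ) * e < W - a' := by
      simp only [e]
      rw [mul_div_assoc', div_lt_iff₀ (by positivity)]
      nlinarith [(Nat.cast_nonneg m : (0 : ℝ) ≤ m), sub_pos.mpr ha'W]
    linarith
  obtain ⟨δ, hδ, hleb⟩ := lebesgue_number_lemma_of_metric hc
    (c := fun i => {x : E3 | x ⬝ᵥ g i ∈ U i})
    (fun i => (hU2 i).preimage (continuous_dot (g i)))
    (fun x hx => by
      obtain ⟨i, hi⟩ := hcov x hx
      exact mem_iUnion.mpr ⟨i, hU1 i hi⟩)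
  have hinter : ∀ x ∈ S, ∃ i, ∀ s : ℝ, |s - x ⬝ᵥ g i| < δ → s ∈ U i := by
    intro x hx
    obtain ⟨i, hi⟩ := hleb x hx
    refine ⟨i, fun s hs => ?_⟩
    have hmem : x + (s - x ⬝ᵥ g i) • g i ∈ Metric.ball x δ := by
      rw [Metric.mem_ball, dist_eq_norm]
      have : x + (s - x ⬝ᵥ g i) • g i - x = (s - x ⬝ᵥ g i) • g i := by abel
      rw [this, norm_smul, Real.norm_eq_abs]
      calc |s - x ⬝ᵥ g i| * ‖g i‖ ≤ |s - x ⬝ᵥ g i| * 1 :=
            mul_le_mul_of_nonneg_left (norm_le_one_of_unit (hg i)) (abs_nonneg _)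
        _ < δ := by simpa using hs
    have h2 := hi hmem
    simp only [mem_ofPred_eq, add_dotProduct, smul_dotProduct, hg i, smul_eq_mul, mul_one] at h2
    simpa using h2
  -- boundedness
  have hbd : ∀ i, ∃ R : ℝ, ∀ x ∈ S, ‖x ⬝ᵥ g i‖ ≤ R := fun i =>
    hc.exists_bound_of_continuousOn (continuous_dot (g i)).continuousOn
  choose R hR using hbd
  let h : ℝ := δ / 2
  have hh : 0 < h := by positivity
  let N : Fin m → ℤ := fun i => ⌈|R i| / h⌉ + 1
  let Jf : Fin m → Finset ℤ := fun i =>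
    (Finset.Icc (-N i) (N i)).filter fun k => Ico ((k : ℝ) * h) (((k : ℝ) + 1) * h) ⊆ U i
  have hcell : ∀ i, ((Jf i).card : ℝ≥0∞) * ENNReal.ofReal h ≤ volume (U i) := by
    intro i
    have hdisj : (↑(Jf i) : Set ℤ).PairwiseDisjoint fun k : ℤ =>
        Ico ((k : ℝ) * h) (((k : ℝ) + 1) * h) := by
      intro k _ l _ hkl
      refine Set.disjoint_left.mpr fun s hs hs' => hkl ?_
      have h1 : (k : ℝ) * h < ((l : ℝ) + 1) * h := lt_of_le_of_lt hs.1 hs'.2
      have h2 : (l : ℝ) * h < ((k : ℝ) + 1) * h := lt_of_le_of_lt hs'.1 hs.2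
      have h3 : (k : ℝ) < (l : ℝ) + 1 := lt_of_mul_lt_mul_right h1 hh.le
      have h4 : (l : ℝ) < (k : ℝ) + 1 := lt_of_mul_lt_mul_right h2 hh.le
      have h5 : k < l + 1 := by exact_mod_cast h3
      have h6 : l < k + 1 := by exact_mod_cast h4
      omega
    have hm : volume (⋃ k ∈ Jf i, Ico ((k : ℝ) * h) (((k : ℝ) + 1) * h)) =
        ∑ k ∈ Jf i, volume (Ico ((k : ℝ) * h) (((k : ℝ) + 1) * h)) :=
      measure_biUnion_finset hdisj fun k _ => measurableSet_Ico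
    have hsub : (⋃ k ∈ Jf i, Ico ((k : ℝ) * h) (((k : ℝ) + 1) * h)) ⊆ U i := by
      refine iUnion₂_subset fun k hk => ?_
      exact (Finset.mem_filter.mp hk).2
    calc ((Jf i).card : ℝ≥0∞) * ENNReal.ofReal h =
          ∑ k ∈ Jf i, volume (Ico ((k : ℝ) * h) (((k : ℝ) + 1) * h)) := by
          rw [Finset.sum_congr rfl (g := fun _ => ENNReal.ofReal h)]
          · simp
          · intro k _
            rw [Real.volume_Ico]
            congr 1
            ring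
      _ = volume (⋃ k ∈ Jf i, Ico ((k : ℝ) * h) (((k : ℝ) + 1) * h)) := hm.symm
      _ ≤ volume (U i) := measure_mono hsub
  let T : ℝ := ∑ i, ((Jf i).card : ℝ) * h
  have hTlt : T < W := by
    have h1 : ENNReal.ofReal T ≤ ENNReal.ofReal (a' + m * e) := by
      calc ENNReal.ofReal T = ∑ i, ((Jf i).card : ℝ≥0∞) * ENNReal.ofReal h := by
            simp only [T]
            rw [ENNReal.ofReal_sum_of_nonneg (fun i _ => mul_nonneg (Nat.cast_nonneg _) hh.le)]
            refine Finset.sum_congr rfl fun i _ => ?_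
            rw [ENNReal.ofReal_mul (Nat.cast_nonneg _), ENNReal.ofReal_natCast]
        _ ≤ ∑ i, volume (U i) := Finset.sum_le_sum fun i _ => hcell i
        _ ≤ _ := hsumU
    have h2 : a' + m * e ≥ 0 := by positivity
    have h3 := (ENNReal.ofReal_le_ofReal_iff h2).mp h1
    linarith
  -- the planks
  let J := Σ i : Fin m, {k : ℤ // k ∈ Jf i}
  let v : J → E3 := fun j => g j.1
  let w : J → ℝ := fun _ => h
  let d : J → ℝ := fun j => ((j.2.1 : ℝ) + 1 / 2) * h
  have hsumw : ∑ j, w j = T := by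
    simp only [w, T]
    rw [Fintype.sum_sigma]
    refine Finset.sum_congr rfl fun i _ => ?_
    simp
  obtain ⟨z, hz, hzout⟩ := bang_finite hc hv hn hS hne hW v w d (fun j => hg j.1)
    (fun j => hgn j.1) (fun _ => hh) (by rw [hsumw]; exact hTlt)
  obtain ⟨i, hi⟩ := hinter z hz
  set s := z ⬝ᵥ g i with hs
  let k : ℤ := ⌊s / h⌋
  have hk1 : (k : ℝ) * h ≤ s := by
    have := Int.floor_le (s / h)
    calc (k : ℝ) * h ≤ s / h * h := mul_le_mul_of_nonneg_right this hh.le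
      _ = s := by field_simp
  have hk2 : s < ((k : ℝ) + 1) * h := by
    have := Int.lt_floor_add_one (s / h)
    calc s = s / h * h := by field_simp
      _ < ((k : ℝ) + 1) * h := mul_lt_mul_of_pos_right this hh
  have hkU : Ico ((k : ℝ) * h) (((k : ℝ) + 1) * h) ⊆ U i := by
    intro r hr
    apply hi
    have h1 : r - s < h := by nlinarith [hr.2]
    have h2 : -h < r - s := by nlinarith [hr.1]
    rw [abs_lt]
    simp only [h] at h1 h2
    constructor <;> linarith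
  have hRs : |s| ≤ |R i| := by
    have := hR i z hz
    rw [Real.norm_eq_abs] at this
    exact this.trans (le_abs_self _)
  have hkN : k ∈ Finset.Icc (-N i) (N i) := by
    have h0 : |s / h| ≤ |R i| / h := by
      rw [abs_div, abs_of_pos hh]
      exact div_le_div_of_nonneg_right hRs hh.le
    have h1 : |R i| / h ≤ (⌈|R i| / h⌉ : ℝ) := Int.le_ceil _
    have h2 := abs_le.mp h0
    rw [Finset.mem_Icc]
    constructor
    · have : (-(N i) : ℤ) ≤ k := by
        apply Int.le_floor.mpr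
        push_cast [N]
        linarith [h2.1]
      exact this
    · have : k ≤ N i := by
        have h3 : k ≤ ⌈|R i| / h⌉ := by
          apply Int.floor_le_iff.mpr
          have : s / h ≤ (⌈|R i| / h⌉ : ℝ) := by linarith [h2.2]
          linarith
        simp only [N]
        omega
      exact this
  have hkJ : k ∈ Jf i := Finset.mem_filter.mpr ⟨hkN, hkU⟩
  have hout := hzout ⟨i, ⟨k, hkJ⟩⟩
  simp only [v, w, d] at hout
  have hin : |s - ((k : ℝ) + 1 / 2) * h| ≤ h / 2 := by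
    rw [abs_le]
    constructor <;> nlinarith
  exact absurd hout (not_lt.mpr hin)

/-- The area of a planar convex set is bounded through one horizontal chord. -/
lemma area_bound {P : Set (ℝ × ℝ)} (hc : IsCompact P) (hv : Convex ℝ P) {t₀ t₁ t φ : ℝ}
    (ht0 : t₀ < t) (ht1 : t < t₁) (hlo : ∀ p ∈ P, t₀ ≤ p.1 ∧ p.1 ≤ t₁)
    (h0 : ∃ s, (t₀, s) ∈ P) (h1 : ∃ s, (t₁, s) ∈ P)
    (hφ : ∀ s s', (t, s) ∈ P → (t, s') ∈ P → s' - s ≤ φ) :
    volume P ≤ ENNReal.ofReal (φ * (t₁ - t₀) ^ 2 / (2 * min (t - t₀) (t₁ - t))) := by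
  classical
  have hH : 0 < t₁ - t₀ := by linarith
  obtain ⟨s0, hs0⟩ := h0
  obtain ⟨s1, hs1⟩ := h1
  -- sections
  have hsec : ∀ r ∈ Icc t₀ t₁, ∃ s, (r, s) ∈ P := by
    intro r hr
    let μ : ℝ := (r - t₀) / (t₁ - t₀)
    have hμ0 : 0 ≤ μ := div_nonneg (by linarith [hr.1]) hH.le
    have hμ1 : μ ≤ 1 := (div_le_one hH).mpr (by linarith [hr.2])
    refine ⟨(1 - μ) * s0 + μ * s1, ?_⟩
    have hm := hv hs0 hs1 (sub_nonneg.mpr hμ1) hμ0 (by ring)
    have hmr : (1 - μ) * t₀ + μ * t₁ = r := by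
      simp only [μ]
      field_simp
      ring
    simpa [hmr] using hm
  have hext : ∀ r, ∃ a b : ℝ, r ∈ Icc t₀ t₁ → ((r, a) ∈ P ∧ (r, b) ∈ P ∧
      ∀ s, (r, s) ∈ P → a ≤ s ∧ s ≤ b) := by
    intro r
    by_cases hr : r ∈ Icc t₀ t₁
    · let C : Set ℝ := Prod.snd '' (P ∩ {p | p.1 = r})
      have hCc : IsCompact C := by
        refine (hc.inter_right ?_).image continuous_snd
        exact isClosed_eq continuous_fst continuous_const
      obtain ⟨s, hs⟩ := hsec r hr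
      have hCn : C.Nonempty := ⟨s, (r, s), ⟨hs, rfl⟩, rfl⟩
      obtain ⟨a, ha, ha'⟩ := hCc.exists_isLeast hCn
      obtain ⟨b, hb, hb'⟩ := hCc.exists_isGreatest hCn
      refine ⟨a, b, fun _ => ?_⟩
      obtain ⟨⟨r1, a1⟩, ⟨ha1, hr1⟩, rfl⟩ := ha
      obtain ⟨⟨r2, b2⟩, ⟨hb2, hr2⟩, rfl⟩ := hb
      simp only [mem_ofPred_eq] at hr1 hr2
      subst hr1
      subst hr2
      refine ⟨ha1, hb2, fun s hs => ⟨ha' ?_, hb' ?_⟩⟩ <;> exact ⟨(_, s), ⟨hs, rfl⟩, rfl⟩
    · exact ⟨0, 0, fun h => absurd h hr⟩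
  choose a b hab using hext
  let F : ℝ → ℝ := fun r => b r - a r
  have hF0 : ∀ r ∈ Icc t₀ t₁, 0 ≤ F r := by
    intro r hr
    obtain ⟨ha, hb, hs⟩ := hab r hr
    have := (hs _ ha).2
    simp only [F]
    linarith
  have hchord : ∀ x ∈ Icc t₀ t₁, ∀ y ∈ Icc t₀ t₁, ∀ r, x < r → r < y →
      (y - r) * F x + (r - x) * F y ≤ (y - x) * F r := by
    intro x hx y hy r hxr hry
    have hxy : 0 < y - x := by linarith
    have hr : r ∈ Icc t₀ t₁ := ⟨by linarith [hx.1], by linarith [hy.2]⟩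
    let μ : ℝ := (r - x) / (y - x)
    have hμ0 : 0 ≤ μ := div_nonneg (by linarith) hxy.le
    have hμ1 : μ ≤ 1 := (div_le_one hxy).mpr (by linarith)
    have hmr : (1 - μ) * x + μ * y = r := by
      simp only [μ]
      field_simp
      ring
    obtain ⟨ha, hb, hs⟩ := hab r hr
    obtain ⟨hax, hbx, -⟩ := hab x hx
    obtain ⟨hay, hby, -⟩ := hab y hy
    have hm1 := hv hbx hby (sub_nonneg.mpr hμ1) hμ0 (by ring)
    have hm2 := hv hax hay (sub_nonneg.mpr hμ1) hμ0 (by ring)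
    have hm1' : (r, (1 - μ) * b x + μ * b y) ∈ P := by simpa [hmr] using hm1
    have hm2' : (r, (1 - μ) * a x + μ * a y) ∈ P := by simpa [hmr] using hm2
    have h3 := (hs _ hm1').2
    have h4 := (hs _ hm2').1
    have h5 : (1 - μ) * F x + μ * F y ≤ F r := by
      simp only [F]
      linarith
    have hyr : (y - x) * (1 - μ) = y - r := by
      simp only [μ]
      field_simp
      ring
    have hrx : (y - x) * μ = r - x := by
      simp only [μ]
      field_simp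
    calc (y - r) * F x + (r - x) * F y = (y - x) * ((1 - μ) * F x + μ * F y) := by
          rw [← hyr, ← hrx]
          ring
      _ ≤ (y - x) * F r := mul_le_mul_of_nonneg_left h5 hxy.le
  have htI : t ∈ Icc t₀ t₁ := ⟨ht0.le, ht1.le⟩
  have hH' : t₀ ≤ t₁ := by linarith
  have ht0I : t₀ ∈ Icc t₀ t₁ := ⟨le_refl _, hH'⟩
  have ht1I : t₁ ∈ Icc t₀ t₁ := ⟨hH', le_refl _⟩
  -- the slopes
  let Sl : Set ℝ := (fun y => (F y - F t) / (y - t)) '' Ioc t t₁
  have hSln : Sl.Nonempty := ⟨_, t₁, ⟨ht1, le_refl _⟩, rfl⟩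
  have hslope : ∀ x ∈ Icc t₀ t₁, x < t → ∀ z ∈ Sl, z ≤ (F t - F x) / (t - x) := by
    rintro x hx hxt _ ⟨y, hy, rfl⟩
    have hyt : 0 < y - t := by linarith [hy.1]
    have htx : 0 < t - x := by linarith
    have hyI : y ∈ Icc t₀ t₁ := ⟨by linarith [hy.1], hy.2⟩
    have h3 := hchord x hx y hyI t hxt hy.1
    simp only
    rw [div_le_div_iff₀ hyt htx]
    nlinarith
  have hSlb : BddAbove Sl := ⟨(F t - F t₀) / (t - t₀), fun z hz => hslope t₀ ht0I ht0 z hz⟩
  let d : ℝ := sSup Sl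
  have hsupp : ∀ r ∈ Icc t₀ t₁, F r ≤ F t + d * (r - t) := by
    intro r hr
    rcases lt_trichotomy r t with hrt | rfl | hrt
    · have htr : 0 < t - r := by linarith
      have h3 : d ≤ (F t - F r) / (t - r) := csSup_le hSln (hslope r hr hrt)
      rw [le_div_iff₀ htr] at h3
      nlinarith
    · simp
    · have hrt' : 0 < r - t := by linarith
      have h3 : (F r - F t) / (r - t) ≤ d := le_csSup hSlb ⟨r, ⟨hrt, hr.2⟩, rfl⟩
      rw [div_le_iff₀ hrt'] at h3
      linarith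
  let L : ℝ → ℝ := fun r => F t + d * (r - t)
  have hL0 : ∀ r ∈ Icc t₀ t₁, 0 ≤ L r := fun r hr => (hF0 r hr).trans (hsupp r hr)
  have hd1 : d * (t - t₀) ≤ F t := by
    have := hL0 t₀ ht0I
    simp only [L] at this
    nlinarith
  have hd2 : - (d * (t₁ - t)) ≤ F t := by
    have := hL0 t₁ ht1I
    simp only [L] at this
    nlinarith
  -- Tonelli
  have hPm : MeasurableSet P := hc.isClosed.measurableSet
  have hvol : volume P ≤ ∫⁻ r in Icc t₀ t₁, ENNReal.ofReal (L r) := by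
    rw [Measure.volume_eq_prod, Measure.prod_apply hPm, ← lintegral_indicator measurableSet_Icc]
    refine lintegral_mono fun r => ?_
    by_cases hr : r ∈ Icc t₀ t₁
    · rw [indicator_of_mem hr]
      obtain ⟨ha, hb, hs⟩ := hab r hr
      have hsub : Prod.mk r ⁻¹' P ⊆ Icc (a r) (b r) := fun s hs' => hs s hs'
      calc volume (Prod.mk r ⁻¹' P) ≤ volume (Icc (a r) (b r)) := measure_mono hsub
        _ = ENNReal.ofReal (F r) := Real.volume_Icc
        _ ≤ ENNReal.ofReal (L r) := ENNReal.ofReal_le_ofReal (hsupp r hr)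
    · rw [indicator_of_notMem hr]
      have : Prod.mk r ⁻¹' P = ∅ := by
        ext s
        simp only [mem_preimage, mem_empty_iff_false, iff_false]
        intro hs
        exact hr (hlo _ hs)
      rw [this]
      simp
  have hLc : Continuous L := by
    simp only [L]
    fun_prop
  have hint : ∫⁻ r in Icc t₀ t₁, ENNReal.ofReal (L r) =
      ENNReal.ofReal (F t * (t₁ - t₀) + d * ((t₁ ^ 2 - t₀ ^ 2) / 2 - t * (t₁ - t₀))) := by
    rw [← ofReal_integral_eq_lintegral_ofReal (hLc.continuousOn.integrableOn_Icc)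
      ((ae_restrict_iff' measurableSet_Icc).mpr (Filter.Eventually.of_forall fun r hr => hL0 r hr))]
    congr 1
    rw [integral_Icc_eq_integral_Ioc, ← intervalIntegral.integral_of_le hH']
    have hderiv : ∀ r ∈ uIcc t₀ t₁, HasDerivAt
        (fun r => F t * r + d * (r ^ 2 / 2 - t * r)) (L r) r := by
      intro r _
      have h1 : HasDerivAt (fun r : ℝ => r ^ 2 / 2 - t * r) (r - t) r := by
        have := ((hasDerivAt_pow 2 r).div_const 2).sub ((hasDerivAt_id' r).const_mul t)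
        refine this.congr_deriv ?_
        norm_num
      have h2 := ((hasDerivAt_id' r).const_mul (F t)).add (h1.const_mul d)
      refine h2.congr_deriv ?_
      simp only [L]
      ring
    rw [intervalIntegral.integral_eq_sub_of_hasDerivAt hderiv (hLc.intervalIntegrable _ _)]
    ring
  rw [hint] at hvol
  refine hvol.trans (ENNReal.ofReal_le_ofReal ?_)
  obtain ⟨ha, hb, -⟩ := hab t htI
  have hFφ : F t ≤ φ := hφ _ _ ha hb
  have hδ : 0 < min (t - t₀) (t₁ - t) := lt_min (by linarith) (by linarith)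
  have hmain : F t * (t₁ - t₀) + d * ((t₁ ^ 2 - t₀ ^ 2) / 2 - t * (t₁ - t₀)) ≤
      F t * (t₁ - t₀) ^ 2 / (2 * min (t - t₀) (t₁ - t)) := by
    rw [le_div_iff₀ (by positivity)]
    rcases le_total (t - t₀) (t₁ - t) with hle | hle
    · rw [min_eq_left hle]
      have hm : 0 ≤ (t₀ + t₁) / 2 - t := by linarith
      have h5 : (d * (t - t₀)) * ((t₀ + t₁) / 2 - t) ≤ F t * ((t₀ + t₁) / 2 - t) :=
        mul_le_mul_of_nonneg_right hd1 hm
      have h6 := mul_le_mul_of_nonneg_left h5 hH.le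
      nlinarith
    · rw [min_eq_right hle]
      have hm : 0 ≤ t - (t₀ + t₁) / 2 := by linarith
      have h5 : (- (d * (t₁ - t))) * (t - (t₀ + t₁) / 2) ≤ F t * (t - (t₀ + t₁) / 2) :=
        mul_le_mul_of_nonneg_right hd2 hm
      have h6 := mul_le_mul_of_nonneg_left h5 hH.le
      nlinarith
  refine hmain.trans ?_
  gcongr

/-- Parseval for an orthonormal frame of `ℝ³`. -/
lemma frame_parseval {e f u : E3} (h : e ⬝ᵥ e = 1 ∧ f ⬝ᵥ f = 1 ∧ u ⬝ᵥ u = 1 ∧
    e ⬝ᵥ f = 0 ∧ e ⬝ᵥ u = 0 ∧ f ⬝ᵥ u = 0) (x y : E3) :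
    x ⬝ᵥ y = (e ⬝ᵥ x) * (e ⬝ᵥ y) + (f ⬝ᵥ x) * (f ⬝ᵥ y) + (u ⬝ᵥ x) * (u ⬝ᵥ y) := by
  obtain ⟨h1, h2, h3, h4, h5, h6⟩ := h
  have h4' : f ⬝ᵥ e = 0 := by rw [dotProduct_comm]; exact h4
  have h5' : u ⬝ᵥ e = 0 := by rw [dotProduct_comm]; exact h5
  have h6' : u ⬝ᵥ f = 0 := by rw [dotProduct_comm]; exact h6
  let M : Matrix (Fin 3) (Fin 3) ℝ := Matrix.of ![e, f, u]
  have hM : M * M.transpose = 1 := by
    ext a b
    rw [Matrix.mul_apply]
    fin_cases a <;> fin_cases b <;>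
      simp only [M, Matrix.transpose_apply, Matrix.of_apply, Matrix.one_apply] <;>
      simp [dotProduct] at h1 h2 h3 h4 h5 h6 h4' h5' h6' ⊢ <;>
      linarith
  have hM' : M.transpose * M = 1 := mul_eq_one_comm.mp hM
  have hkey : ∀ i j, ∑ k, M k i * M k j = if i = j then 1 else 0 := by
    intro i j
    have := congrFun (congrFun hM' i) j
    rw [Matrix.mul_apply, Matrix.one_apply] at this
    simpa [Matrix.transpose_apply] using this
  have hM0 : ∀ j, M 0 j = e j := fun j => rfl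
  have hM1 : ∀ j, M 1 j = f j := fun j => rfl
  have hM2 : ∀ j, M 2 j = u j := fun j => rfl
  have h00 : ∀ i j, e i * e j + f i * f j + u i * u j = if i = j then 1 else 0 := by
    intro i j
    have := hkey i j
    rw [Fin.sum_univ_three, hM0, hM0, hM1, hM1, hM2, hM2] at this
    exact this
  simp only [dotProduct, Fin.sum_univ_three]
  have a11 := h00 0 0
  have a12 := h00 0 1
  have a13 := h00 0 2
  have a22 := h00 1 1
  have a21 := h00 1 0
  have a23 := h00 1 2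
  have a33 := h00 2 2
  have a31 := h00 2 0
  have a32 := h00 2 1
  simp at a11 a12 a13 a22 a21 a23 a33 a31 a32
  linear_combination (-(x 0 * y 0)) * a11 + (-(x 0 * y 1)) * a12 + (-(x 0 * y 2)) * a13
    + (-(x 1 * y 1)) * a22 + (-(x 1 * y 0)) * a21 + (-(x 1 * y 2)) * a23
    + (-(x 2 * y 2)) * a33 + (-(x 2 * y 0)) * a31 + (-(x 2 * y 1)) * a32

/-- The value of the area integral of the weight. -/
lemma weight_integral {t₀ t₁ c : ℝ} (hH : t₀ < t₁) (hc : 0 ≤ c) :
    ∫⁻ r in Ioo t₀ t₁, ENNReal.ofReal (c * min (r - t₀) (t₁ - r)) =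
      ENNReal.ofReal (c * (t₁ - t₀) ^ 2 / 4) := by
  let W : ℝ → ℝ := fun r => c * min (r - t₀) (t₁ - r)
  have hWc : Continuous W := by
    simp only [W]
    fun_prop
  have hW0 : ∀ r ∈ Ioo t₀ t₁, 0 ≤ W r := fun r hr =>
    mul_nonneg hc (le_min (by linarith [hr.1]) (by linarith [hr.2]))
  show ∫⁻ r in Ioo t₀ t₁, ENNReal.ofReal (W r) = _
  rw [← ofReal_integral_eq_lintegral_ofReal
    ((hWc.continuousOn.integrableOn_Icc (a := t₀) (b := t₁)).mono_set Ioo_subset_Icc_self)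
    ((ae_restrict_iff' measurableSet_Ioo).mpr (Filter.Eventually.of_forall fun r hr => hW0 r hr))]
  congr 1
  rw [← integral_Ioc_eq_integral_Ioo, ← intervalIntegral.integral_of_le hH.le]
  let m : ℝ := (t₀ + t₁) / 2
  have h1 : ∫ r in t₀..m, W r = ∫ r in t₀..m, c * (r - t₀) := by
    refine intervalIntegral.integral_congr fun r hr => ?_
    rw [uIcc_of_le (by simp only [m]; linarith)] at hr
    simp only [W, m] at hr ⊢
    rw [min_eq_left (by linarith [hr.2])]
  have h2 : ∫ r in m..t₁, W r = ∫ r in m..t₁, c * (t₁ - r) := by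
    refine intervalIntegral.integral_congr fun r hr => ?_
    rw [uIcc_of_le (by simp only [m]; linarith)] at hr
    simp only [W, m] at hr ⊢
    rw [min_eq_right (by linarith [hr.1])]
  have hd1 : ∀ r ∈ uIcc t₀ m, HasDerivAt (fun r => c * (r ^ 2 / 2 - t₀ * r)) (c * (r - t₀)) r := by
    intro r _
    have := (((hasDerivAt_pow 2 r).div_const 2).sub ((hasDerivAt_id' r).const_mul t₀)).const_mul c
    refine this.congr_deriv ?_
    norm_num
  have hd2 : ∀ r ∈ uIcc m t₁, HasDerivAt (fun r => c * (t₁ * r - r ^ 2 / 2)) (c * (t₁ - r)) r := by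
    intro r _
    have := (((hasDerivAt_id' r).const_mul t₁).sub ((hasDerivAt_pow 2 r).div_const 2)).const_mul c
    refine this.congr_deriv ?_
    norm_num
  rw [← intervalIntegral.integral_add_adjacent_intervals (hWc.intervalIntegrable t₀ m)
    (hWc.intervalIntegrable m t₁), h1, h2,
    intervalIntegral.integral_eq_sub_of_hasDerivAt hd1
      (Continuous.intervalIntegrable (by fun_prop) _ _),
    intervalIntegral.integral_eq_sub_of_hasDerivAt hd2
      (Continuous.intervalIntegrable (by fun_prop) _ _)]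
  simp only [m]
  ring

/-- **Half-area theorem for cylinder coverings with axes parallel to one plane.** -/
theorem coplanar_half_area (K : Set (Fin 3 → ℝ))
    (hKc : IsCompact K) (hKv : Convex ℝ K) (hKi : (interior K).Nonempty)
    {m : ℕ} (e f u : Fin m → Fin 3 → ℝ)
    (hframe : ∀ i, e i ⬝ᵥ e i = 1 ∧ f i ⬝ᵥ f i = 1 ∧ u i ⬝ᵥ u i = 1 ∧
      e i ⬝ᵥ f i = 0 ∧ e i ⬝ᵥ u i = 0 ∧ f i ⬝ᵥ u i = 0)
    (B : Fin m → Set (ℝ × ℝ))
    (hcover : K ⊆ ⋃ i, {x | ∃ b ∈ B i, ∃ t : ℝ, x = b.1 • e i + b.2 • f i + t • u i})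
    (n : Fin 3 → ℝ) (hn : n ⬝ᵥ n = 1) (hun : ∀ i, u i ⬝ᵥ n = 0)
    (A : ℝ≥0∞)
    (hA : ∀ e' f' u' : Fin 3 → ℝ, (e' ⬝ᵥ e' = 1 ∧ f' ⬝ᵥ f' = 1 ∧ u' ⬝ᵥ u' = 1 ∧
      e' ⬝ᵥ f' = 0 ∧ e' ⬝ᵥ u' = 0 ∧ f' ⬝ᵥ u' = 0) → u' ⬝ᵥ n = 0 →
      A ≤ volume ((fun x => (e' ⬝ᵥ x, f' ⬝ᵥ x)) '' K)) :
    A / 2 ≤ ∑ i, volume (B i) := by
  classical
  by_cases hA0 : A = 0
  · simp [hA0]
  obtain ⟨xi, hxi⟩ := hKi
  have hxiK : xi ∈ K := interior_subset hxi
  -- the heights
  have hnc : Continuous fun x : E3 => n ⬝ᵥ x := by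
    simp only [dotProduct]
    fun_prop
  obtain ⟨x₀, hx₀, hmin⟩ := hKc.exists_isMinOn ⟨xi, hxiK⟩ hnc.continuousOn
  obtain ⟨x₁, hx₁, hmax⟩ := hKc.exists_isMaxOn ⟨xi, hxiK⟩ hnc.continuousOn
  set t₀ := n ⬝ᵥ x₀ with ht₀
  set t₁ := n ⬝ᵥ x₁ with ht₁
  have hlo : ∀ x ∈ K, t₀ ≤ n ⬝ᵥ x ∧ n ⬝ᵥ x ≤ t₁ := fun x hx => ⟨hmin hx, hmax hx⟩
  have hH : t₀ < t₁ := by
    have hnh : K ∈ nhds xi := mem_interior_iff_mem_nhds.mp hxi
    have hc1 : Continuous fun s : ℝ => xi + s • n := by fun_prop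
    have hev : ∀ᶠ s in nhds (0 : ℝ), xi + s • n ∈ K :=
      hc1.continuousAt.eventually (by simpa using hnh)
    have hpos : ∃ s : ℝ, 0 < s ∧ xi + s • n ∈ K := by
      obtain ⟨ε, hε, hball⟩ := Metric.eventually_nhds_iff.mp hev
      refine ⟨ε / 2, by positivity, hball ?_⟩
      rw [Real.dist_eq, sub_zero, abs_of_pos (by positivity)]
      linarith
    obtain ⟨s, hs0, hs⟩ := hpos
    have h1 := (hlo _ hs).2
    have h2 := (hlo _ hxiK).1
    simp only [dotProduct_add, dotProduct_smul, smul_eq_mul, hn] at h1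
    linarith
  have hsec : ∀ t ∈ Icc t₀ t₁, ∃ x ∈ K, n ⬝ᵥ x = t := by
    intro t ht
    let μ : ℝ := (t - t₀) / (t₁ - t₀)
    have hd : 0 < t₁ - t₀ := by linarith
    have hμ0 : 0 ≤ μ := div_nonneg (by linarith [ht.1]) hd.le
    have hμ1 : μ ≤ 1 := (div_le_one hd).mpr (by linarith [ht.2])
    refine ⟨(1 - μ) • x₀ + μ • x₁, hKv hx₀ hx₁ (sub_nonneg.mpr hμ1) hμ0 (by ring), ?_⟩
    simp only [dotProduct_add, dotProduct_smul, smul_eq_mul, ← ht₀, ← ht₁, μ]
    field_simp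
    ring
  -- the measure `A` is finite
  have hxiC : ∃ i, xi ∈ {x | ∃ b ∈ B i, ∃ t : ℝ, x = b.1 • e i + b.2 • f i + t • u i} :=
    mem_iUnion.mp (hcover hxiK)
  obtain ⟨i₀, -⟩ := hxiC
  -- the directions
  let g : Fin m → E3 := fun i => crossProduct (u i) n
  have hgg : ∀ i, g i ⬝ᵥ g i = 1 := by
    intro i
    simp only [g]
    rw [cross_dot_cross, (hframe i).2.2.1, hn, hun i, dotProduct_comm n (u i), hun i]
    ring
  have hgn : ∀ i, g i ⬝ᵥ n = 0 := by
    intro i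
    simp only [g]
    rw [dotProduct_comm]
    exact dot_cross_self _ _
  have hgu : ∀ i, u i ⬝ᵥ g i = 0 := fun i => dot_self_cross _ _
  -- the widths: a frame for each direction
  have hframeP : ∀ g' : E3, g' ⬝ᵥ g' = 1 → g' ⬝ᵥ n = 0 →
      A ≤ volume ((fun x => (n ⬝ᵥ x, g' ⬝ᵥ x)) '' K) := by
    intro g' h1 h2
    refine hA n g' (crossProduct g' n) ?_ ?_
    · refine ⟨hn, h1, ?_, ?_, ?_, ?_⟩
      · rw [cross_dot_cross, h1, hn, h2, dotProduct_comm n g', h2]
        ring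
      · rw [dotProduct_comm]
        exact h2
      · exact dot_cross_self _ _
      · exact dot_self_cross _ _
    · rw [dotProduct_comm]
      exact dot_cross_self _ _
  have hAtop : A ≠ ⊤ := by
    have hP : IsCompact ((fun x => (n ⬝ᵥ x, g i₀ ⬝ᵥ x)) '' K) := by
      refine hKc.image ?_
      simp only [dotProduct]
      fun_prop
    exact ((hframeP (g i₀) (hgg i₀) (hgn i₀)).trans_lt hP.measure_lt_top).ne
  set A' := A.toReal with hA'
  have hAA : A = ENNReal.ofReal A' := (ENNReal.ofReal_toReal hAtop).symm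
  have hA'pos : 0 < A' := ENNReal.toReal_pos hA0 hAtop
  set H := t₁ - t₀ with hHdef
  have hHpos : 0 < H := by simp only [hHdef]; linarith
  let cc : ℝ := 2 * A' / H ^ 2
  have hccpos : 0 < cc := by positivity
  -- width estimate
  have hwidth : ∀ t ∈ Ioo t₀ t₁, ∀ g' : E3, g' ⬝ᵥ g' = 1 → g' ⬝ᵥ n = 0 →
      ∃ x ∈ K ∩ {x | n ⬝ᵥ x = t}, ∃ x' ∈ K ∩ {x | n ⬝ᵥ x = t},
        cc * min (t - t₀) (t₁ - t) ≤ (x' - x) ⬝ᵥ g' := by
    intro t ht g' h1 h2
    have hSc : IsCompact (K ∩ {x | n ⬝ᵥ x = t}) :=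
      hKc.inter_right (isClosed_eq hnc continuous_const)
    have hSn : (K ∩ {x | n ⬝ᵥ x = t}).Nonempty := by
      obtain ⟨x, hx, hxt⟩ := hsec t ⟨ht.1.le, ht.2.le⟩
      exact ⟨x, hx, hxt⟩
    have hg'c : Continuous fun x : E3 => g' ⬝ᵥ x := by
      simp only [dotProduct]
      fun_prop
    obtain ⟨y, hy, hymin⟩ := hSc.exists_isMinOn hSn hg'c.continuousOn
    obtain ⟨y', hy', hymax⟩ := hSc.exists_isMaxOn hSn hg'c.continuousOn
    refine ⟨y, hy, y', hy', ?_⟩
    set φ := g' ⬝ᵥ y' - g' ⬝ᵥ y with hφdef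
    have hφ0 : 0 ≤ φ := by
      have := hymax hy
      simp only [mem_ofPred_eq] at this
      simp only [hφdef]
      linarith
    have hPc : IsCompact ((fun x => (n ⬝ᵥ x, g' ⬝ᵥ x)) '' K) := by
      refine hKc.image ?_
      simp only [dotProduct]
      fun_prop
    have hPv : Convex ℝ ((fun x => (n ⬝ᵥ x, g' ⬝ᵥ x)) '' K) := by
      let Pl : E3 →ₗ[ℝ] ℝ × ℝ :=
        { toFun := fun x => (n ⬝ᵥ x, g' ⬝ᵥ x)
          map_add' := fun x y => by simp [dotProduct_add]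
          map_smul' := fun c x => by simp [dotProduct_smul] }
      exact hKv.linear_image Pl
    have hbd := area_bound hPc hPv (t₀ := t₀) (t₁ := t₁) (t := t) (φ := φ) ht.1 ht.2
      (by
        rintro _ ⟨x, hx, rfl⟩
        exact hlo x hx)
      ⟨_, x₀, hx₀, rfl⟩ ⟨_, x₁, hx₁, rfl⟩
      (by
        rintro s s' ⟨x, hx, hxe⟩ ⟨x', hx', hxe'⟩
        simp only [Prod.mk.injEq] at hxe hxe'
        have h3 : g' ⬝ᵥ x' ≤ g' ⬝ᵥ y' := hymax (show x' ∈ K ∩ {x | n ⬝ᵥ x = t} from ⟨hx', hxe'.1⟩)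
        have h4 : g' ⬝ᵥ y ≤ g' ⬝ᵥ x := hymin (show x ∈ K ∩ {x | n ⬝ᵥ x = t} from ⟨hx, hxe.1⟩)
        rw [← hxe.2, ← hxe'.2]
        simp only [hφdef]
        linarith)
    have hle := (hframeP g' h1 h2).trans hbd
    rw [hAA] at hle
    have hδ : 0 < min (t - t₀) (t₁ - t) := lt_min (by linarith [ht.1]) (by linarith [ht.2])
    have hrhs : 0 ≤ φ * (t₁ - t₀) ^ 2 / (2 * min (t - t₀) (t₁ - t)) := by positivity
    have hle' := (ENNReal.ofReal_le_ofReal_iff hrhs).mp hle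
    rw [le_div_iff₀ (by positivity)] at hle'
    have hgoal : (y' - y) ⬝ᵥ g' = φ := by
      rw [hφdef, dotProduct_comm, dotProduct_sub]
    rw [hgoal]
    simp only [cc]
    rw [div_mul_eq_mul_div, div_le_iff₀ (by positivity)]
    simp only [hHdef]
    nlinarith
  -- rotated bases
  let ρ : Fin m → (ℝ × ℝ) →ₗ[ℝ] ℝ × ℝ := fun i =>
    Matrix.toLin (Module.Basis.finTwoProd ℝ) (Module.Basis.finTwoProd ℝ)
      !![e i ⬝ᵥ n, f i ⬝ᵥ n; e i ⬝ᵥ g i, f i ⬝ᵥ g i]
  have hρapp : ∀ i (b : ℝ × ℝ), ρ i b =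
      ((e i ⬝ᵥ n) * b.1 + (f i ⬝ᵥ n) * b.2, (e i ⬝ᵥ g i) * b.1 + (f i ⬝ᵥ g i) * b.2) :=
    fun i b => Matrix.toLin_finTwoProd_apply _ _ _ _ _
  have hdet : ∀ i, |LinearMap.det (ρ i)| = 1 := by
    intro i
    simp only [ρ]
    rw [LinearMap.det_toLin, Matrix.det_fin_two_of]
    set a := e i ⬝ᵥ n
    set b := f i ⬝ᵥ n
    set c := e i ⬝ᵥ g i
    set d := f i ⬝ᵥ g i
    have p1 := frame_parseval (hframe i) n n
    have p2 := frame_parseval (hframe i) (g i) (g i)
    have p3 := frame_parseval (hframe i) n (g i)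
    rw [hn, dotProduct_comm (e i) n, dotProduct_comm (f i) n, dotProduct_comm n (e i),
      dotProduct_comm n (f i), hun i] at p1
    rw [hgg i, hgu i] at p2
    rw [dotProduct_comm n (g i), hgn i, dotProduct_comm (e i) n, dotProduct_comm (f i) n,
      dotProduct_comm n (e i), dotProduct_comm n (f i), hun i, hgu i] at p3
    have hsq : (a * d - b * c) ^ 2 = 1 := by
      have p1' : a * a + b * b = 1 := by linarith
      have p2' : c * c + d * d = 1 := by linarith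
      have p3' : a * c + b * d = 0 := by linarith
      have : (a * d - b * c) ^ 2 = (a * a + b * b) * (c * c + d * d) - (a * c + b * d) ^ 2 := by
        ring
      rw [this, p1', p2', p3']
      ring
    have : |a * d - b * c| ^ 2 = 1 := by rw [sq_abs]; exact hsq
    have h0 := abs_nonneg (a * d - b * c)
    nlinarith
  let B' : Fin m → Set (ℝ × ℝ) := fun i => ρ i '' B i
  have hB' : ∀ i, volume (B' i) = volume (B i) := by
    intro i
    simp only [B']
    rw [Measure.addHaar_image_linearMap, hdet i]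
    simp
  let M : Fin m → Set (ℝ × ℝ) := fun i => toMeasurable volume (B' i)
  have hMm : ∀ i, MeasurableSet (M i) := fun i => measurableSet_toMeasurable _ _
  have hMv : ∀ i, volume (M i) = volume (B i) := fun i => by
    simp only [M]
    rw [measure_toMeasurable, hB' i]
  have hKM : ∀ x ∈ K, ∃ i, (n ⬝ᵥ x, x ⬝ᵥ g i) ∈ M i := by
    intro x hx
    obtain ⟨i, b, hb, t, hxe⟩ := mem_iUnion.mp (hcover hx)
    refine ⟨i, subset_toMeasurable _ _ ⟨b, hb, ?_⟩⟩
    rw [hρapp, hxe]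
    have h1 : n ⬝ᵥ (b.1 • e i + b.2 • f i + t • u i) = (e i ⬝ᵥ n) * b.1 + (f i ⬝ᵥ n) * b.2 := by
      simp only [dotProduct_add, dotProduct_smul, smul_eq_mul]
      rw [dotProduct_comm n (e i), dotProduct_comm n (f i), dotProduct_comm n (u i), hun i]
      ring
    have h2 : (b.1 • e i + b.2 • f i + t • u i) ⬝ᵥ g i = (e i ⬝ᵥ g i) * b.1 + (f i ⬝ᵥ g i) * b.2 := by
      simp only [add_dotProduct, smul_dotProduct, smul_eq_mul, hgu i]
      ring
    rw [h1, h2]
  -- Tonelli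
  have hsum : ∑ i, volume (B i) = ∫⁻ r, ∑ i, volume (Prod.mk r ⁻¹' M i) := by
    rw [lintegral_finsetSum _ fun i _ => measurable_measure_prodMk_left (hMm i)]
    refine Finset.sum_congr rfl fun i _ => ?_
    rw [← hMv i, Measure.volume_eq_prod, Measure.prod_apply (hMm i)]
  have hslice : ∀ r ∈ Ioo t₀ t₁, ENNReal.ofReal (cc * min (r - t₀) (t₁ - r)) ≤
      ∑ i, volume (Prod.mk r ⁻¹' M i) := by
    intro r hr
    have hδ : 0 < min (r - t₀) (t₁ - r) := lt_min (by linarith [hr.1]) (by linarith [hr.2])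
    refine slice_measure (S := K ∩ {x | n ⬝ᵥ x = r}) (n := n) (t := r)
      (hKc.inter_right (isClosed_eq hnc continuous_const))
      (hKv.inter ?_) hn (fun x hx => hx.2) ?_ (mul_pos hccpos hδ)
      (fun g' h1 h2 => hwidth r hr g' h1 h2) g hgg hgn (fun i => Prod.mk r ⁻¹' M i) ?_
    · intro a ha b hb s w hs hw hsw
      simp only [mem_ofPred_eq] at ha hb ⊢
      rw [dotProduct_add, dotProduct_smul, dotProduct_smul, ha, hb]
      simp only [smul_eq_mul]
      rw [← add_mul, hsw, one_mul]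
    · obtain ⟨x, hx, hxt⟩ := hsec r ⟨hr.1.le, hr.2.le⟩
      exact ⟨x, hx, hxt⟩
    · intro x hx
      obtain ⟨i, hi⟩ := hKM x hx.1
      refine ⟨i, ?_⟩
      have hxr : n ⬝ᵥ x = r := hx.2
      rw [hxr] at hi
      exact hi
  have hfinal : ENNReal.ofReal (cc * H ^ 2 / 4) ≤ ∑ i, volume (B i) := by
    rw [hsum, hHdef, ← weight_integral hH hccpos.le]
    calc ∫⁻ r in Ioo t₀ t₁, ENNReal.ofReal (cc * min (r - t₀) (t₁ - r))
        ≤ ∫⁻ r in Ioo t₀ t₁, ∑ i, volume (Prod.mk r ⁻¹' M i) :=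
          setLIntegral_mono' measurableSet_Ioo hslice
      _ ≤ ∫⁻ r, ∑ i, volume (Prod.mk r ⁻¹' M i) := setLIntegral_le_lintegral _ _
  have hval : cc * H ^ 2 / 4 = A' / 2 := by
    simp only [cc]
    field_simp
    ring
  rw [hval] at hfinal
  rw [hAA]
  rw [ENNReal.ofReal_div_of_pos (by norm_num : (0 : ℝ) < 2)] at hfinal
  simpa using hfinal

end Vale.Agent.helper6.BangPlank
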